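import Vale.Agent.P032.S5.H585.Pinch
import Vale.Agent.P032.S5.H80.Ray

/-!
# P032: two-pair points do not accumulate at four-coloured points with an inner arc

`Irr.cd_on` (Lemma W): if `T z = {a, b, c, d}` and `S(z)` has an exact `ab`-arc, then every point `V`
near a point of `S(z)` which has the colours `c`, `d` and at most three colours is on `S(z)`.

`Irr.no_acc`: so no other point near `z` has an exact `cd`-arc on its circle.
-/

open Set Filter Topology Metric

noncomputable section

namespace Vale.Agent.P032.Six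

variable {k : ℕ} {U : Fin k → Set ℂ} {T : ℂ → Set (Fin k)}

/-- **Lemma W** -/
theorem Irr.cd_on (h : Irr U T) {z g p : ℂ} {a b c d : Fin k} (hz : T z = {a, b, c, d})
    (hg : Arc T z g {a, b}) (hp : dist p z = 1) :
    ∀ᶠ V in 𝓝 p, c ∈ T V → d ∈ T V → (T V).ncard ≤ 3 → dist V z = 1 := by
  have hJ : ∀ᶠ q in 𝓝[sphere z 1] g, ({a, b} : Set (Fin k)) ⊆ Pal U q :=
    hg.2.mono fun q hq => by rw [← hq]; exact h.sub q
  filter_upwards [h.mx.gap_ev hg.1 hJ (by rw [dist_comm]; exact hp) (h.nhd z)] with V hV hc hd h3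
  by_contra hne
  obtain ⟨w, hw, hwV, hwP⟩ := hV hne
  have hw : T w ⊆ T z := hw
  have hsub : T w ⊆ T V := by
    intro i hi
    have h1 := hw hi
    rw [hz] at h1
    rcases h1 with rfl | rfl | rfl | h1
    · exact absurd (h.sub w hi) (hwP i (by simp))
    · exact absurd (h.sub w hi) (hwP i (by simp))
    · exact hc
    · rw [mem_singleton_iff] at h1
      rw [h1]; exact hd
  exact h.not_sub (x := V) (y := w) hwV h3 hsub

/-- uniform version of Lemma W: a neighbourhood of the whole circle -/
theorem Irr.cd_on_unif (h : Irr U T) {z g : ℂ} {a b c d : Fin k} (hz : T z = {a, b, c, d})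
    (hg : Arc T z g {a, b}) :
    ∀ᶠ z' in 𝓝 z, ∀ V, dist V z' = 1 → c ∈ T V → d ∈ T V → (T V).ncard ≤ 3 → dist V z = 1 := by
  -- compactness of the circle
  let W : Set ℂ := {V | c ∈ T V → d ∈ T V → (T V).ncard ≤ 3 → dist V z = 1}
  have hW : sphere z 1 ⊆ interior W := fun p hp =>
    mem_interior_iff_mem_nhds.2 (h.cd_on hz hg hp)
  obtain ⟨ε, hε, hth⟩ := (isCompact_sphere z 1).exists_thickening_subset_open isOpen_interior hW
  filter_upwards [ball_mem_nhds z hε] with z' hz' V hV
  have hVW : V ∈ W := by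
    refine interior_subset (hth ?_)
    rw [mem_thickening_iff]
    refine ⟨V + (z - z'), ?_, ?_⟩
    · rw [mem_sphere, dist_eq_norm, ← hV, dist_eq_norm]; congr 1; ring
    · rw [dist_eq_norm, show V - (V + (z - z')) = z' - z by ring, ← dist_eq_norm]
      exact hz'
  exact hVW

/-- an arc of a unit circle on another unit circle: the centres are equal or at distance two -/
theorem arc_on_circle {z z' : ℂ} {p : ℂ} (hp : dist p z' = 1)
    (hJ : ∀ᶠ q in 𝓝[sphere z' 1] p, dist q z = 1) : z' = z ∨ z' + z = 2 * p := by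
  obtain ⟨t0, ht0⟩ := exists_cis (u := p - z') (by rw [← dist_eq_norm]; exact hp)
  have hpt : z' + cis t0 = p := by rw [← ht0]; ring
  obtain ⟨v, hv, hvs⟩ := mem_nhdsWithin_iff_exists_mem_nhds_inter.1 hJ
  have hc2 : ContinuousAt (fun t => z' + cis t) t0 :=
    (continuous_const.add continuous_cis).continuousAt
  obtain ⟨η, hη, hball⟩ := Metric.mem_nhds_iff.1 (hc2.preimage_mem_nhds (by rw [hpt]; exact hv))
  have hall : ∀ t : ℝ, |t - t0| < η → dist (z' + cis t) z = 1 := fun t ht =>
    hvs ⟨hball (by rw [mem_ball, Real.dist_eq]; exact ht), dist_add_cis z' t⟩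
  have h0 : dist (z' + cis t0) z = 1 := hall t0 (by simpa using hη)
  have hcr : cr (cis t0) (z' + cis t0 - z) = 0 := by
    by_contra hne
    obtain ⟨t1, t2, h1, h2, h3, h4⟩ := circle_signs h0 hne hη
    rw [hall t1 h1] at h3
    exact lt_irrefl _ h3
  rcases cr_zero (norm_cis t0) (by rw [← dist_eq_norm]; exact h0) hcr with h1 | h1
  · left
    linear_combination -h1
  · right
    rw [← hpt]
    linear_combination -h1

/-- **No accumulation.** -/
theorem Irr.no_acc (h : Irr U T) {z g : ℂ} {a b c d : Fin k} (hz : T z = {a, b, c, d})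
    (hg : Arc T z g {a, b}) :
    ∀ᶠ z' in 𝓝 z, (∃ p, Arc T z' p {c, d}) → z' = z := by
  filter_upwards [h.cd_on_unif hz hg, ball_mem_nhds z one_pos] with z' h1 h2
  rintro ⟨p, hp⟩
  have hJ : ∀ᶠ q in 𝓝[sphere z' 1] p, dist q z = 1 := by
    filter_upwards [hp.2, self_mem_nhdsWithin] with q hq hq1
    refine h1 q hq1 (by rw [hq]; simp) (by rw [hq]; simp) ?_
    rw [hq]
    have e1 := Set.ncard_insert_le c ({d} : Set (Fin k))
    rw [Set.ncard_singleton] at e1
    omega
  rcases arc_on_circle hp.1 hJ with h3 | h3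
  · exact h3
  · exfalso
    have h4 : dist z' z = 2 := by
      have e : z' - z = 2 * (z' - p) := by linear_combination -h3
      rw [dist_eq_norm, e, norm_mul, ← dist_eq_norm z' p, dist_comm z' p, hp.1]
      simp
    rw [mem_ball] at h2
    linarith

end Vale.Agent.P032.Six
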