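import Vale.Agent.P032.H403.DClosed
import Vale.Agent.P032.S5.H843.Core7
import Vale.Agent.P032.S5.H825.End

/-!
# P032: the two-pair points are closed and discrete when all palettes have at most four colours

No local finiteness: everything over `Irr U T` and `Mn U T`.
-/

open Set Filter Topology Metric

noncomputable section

namespace Vale.Agent.P032.Six

variable {U : Fin 6 → Set ℂ} {T : ℂ → Set (Fin 6)}

/-- an exact arc with palette inside `T z` persists on the circles about near points with the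
same palette -/
theorem Irr.arc_persist {k : ℕ} {U : Fin k → Set ℂ} {T : ℂ → Set (Fin k)} (h : Irr U T)
    {z g : ℂ} {a b : Fin k} (hg : Arc T z g {a, b}) :
    ∀ᶠ z' in 𝓝 z, a ∈ T z' → b ∈ T z' → Arc T z' (g + (z' - z)) {a, b} := by
  have h1 : ∀ᶠ w in 𝓝 g, T w ⊆ {a, b} := by
    have := h.nhd g
    rwa [hg.mem] at this
  have h2 := eventually_eventually_nhds.2 h1
  have h3 : Tendsto (fun x => g + (x - z)) (𝓝 z) (𝓝 g) := by
    have : Continuous fun x : ℂ => g + (x - z) := by fun_prop
    have h2 := this.tendsto z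
    simpa using h2
  filter_upwards [h3.eventually h2] with z' hz' ha hb
  refine ⟨?_, ?_⟩
  · rw [dist_eq_norm, ← hg.1, dist_eq_norm]; congr 1; ring
  · filter_upwards [mem_nhdsWithin_of_mem_nhds hz', self_mem_nhdsWithin] with q hq hq1
    have hq1 : dist q z' = 1 := hq1
    have key : ∀ i ∈ T z', ¬ T q ⊆ {i} := fun i hi hsub =>
      h.mx.notMem' (h.mem_of_single hsub) hq1 (h.sub z' hi)
    refine Subset.antisymm hq ?_
    rintro i (rfl | hi)
    · by_contra hcon
      refine key b hb fun j hj => ?_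
      rcases hq hj with rfl | hj'
      · exact absurd hj hcon
      · exact hj'
    · rw [mem_singleton_iff] at hi
      subst hi
      by_contra hcon
      refine key a ha fun j hj => ?_
      rcases hq hj with hj' | hj'
      · exact hj'
      · rw [mem_singleton_iff] at hj'
        subst hj'
        exact absurd hj hcon

/-- **Corollary 1**: a four-coloured point with a point of its circle whose palette is inside is
isolated among the two-pair points -/
theorem Irr.isolated_D (h : Irr U T) (hmin : Mn U T) {z : ℂ} (hz : (T z).ncard = 4)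
    (hM : ∃ y, dist y z = 1 ∧ T y ⊆ T z) :
    ∀ᶠ z' in 𝓝 z, (∃ a b c d, DPt T z' a b c d) → z' = z := by
  obtain ⟨y, hy, hsub⟩ := hM
  obtain ⟨g, -, hgz, hgJ, hgy, hg2, hg3⟩ := h.arc_of_sub hy hsub univ_mem
  have hgs : T g ⊆ T z := hgy.trans hsub
  have hcard : (T g).ncard = 2 ∧ (T z \ T g).ncard = 2 := by
    have := Set.ncard_sdiff hgs (Set.toFinite _)
    omega
  obtain ⟨a, b, hab, hgab⟩ := Set.ncard_eq_two.1 hcard.1
  obtain ⟨c, d, hcd, hzcd⟩ := Set.ncard_eq_two.1 hcard.2
  have hzT : T z = {a, b, c, d} := by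
    have h1 : T z = T g ∪ (T z \ T g) := (union_sdiff_cancel hgs).symm
    rw [h1, hzcd, hgab]
    ext i; simp only [mem_union, mem_insert_iff, mem_singleton_iff]; tauto
  have hg : Arc T z g {a, b} := ⟨hgz, by rw [← hgab]; exact hgJ⟩
  filter_upwards [h.no_acc hzT hg, h.arc_persist hg, h.nhd z] with z' h1 h2 h3
  rintro ⟨a', b', c', d', hD⟩
  have hz'4 : (T z').ncard = 4 := by
    rw [hD.pal, Set.ncard_insert_of_notMem, Set.ncard_insert_of_notMem, Set.ncard_pair hD.cd]
    · simp only [mem_insert_iff, mem_singleton_iff, not_or]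
      exact ⟨hD.bc, hD.bd⟩
    · simp only [mem_insert_iff, mem_singleton_iff, not_or]
      exact ⟨hD.ab, hD.ac, hD.ad⟩
  have hT : T z' = T z := Set.eq_of_subset_of_ncard_le h3 (by rw [hz, hz'4]) (Set.toFinite _)
  have haz : a ∈ T z' := by rw [hT, hzT]; simp
  have hbz : b ∈ T z' := by rw [hT, hzT]; simp
  have hA := h2 haz hbz
  obtain ⟨p1, hp1⟩ := hD.arc1
  obtain ⟨p2, hp2⟩ := hD.arc2
  have hTA : T (g + (z' - z)) = {a, b} := hA.mem
  have hT1 : T p1 = {a', b'} := hp1.mem
  have hT2 : T p2 = {c', d'} := hp2.mem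
  have habs : ({a, b} : Set (Fin 6)) ⊆ T z' := by
    rintro i (rfl | hi)
    · exact haz
    · rw [mem_singleton_iff] at hi; subst hi; exact hbz
  have h1s : T p1 ⊆ T z' := by
    rw [hT1, hD.pal]; rintro i (rfl | rfl) <;> simp
  have h2s : T p2 ⊆ T z' := by
    rw [hT2, hD.pal]; rintro i (rfl | rfl) <;> simp
  have hpair : ∀ p, Arc T z' p (T p) → T p ⊆ T z' → (T p).ncard = 2 → Disjoint (T p) {a, b} →
      z' = z := by
    intro p hp hps hpc hdis
    refine h1 ⟨p, ?_⟩
    have e : T p = {c, d} := by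
      refine Set.eq_of_subset_of_ncard_le ?_ (by rw [Set.ncard_pair hcd, hpc]) (Set.toFinite _)
      intro i hi
      have h4 := hps hi
      rw [hT, hzT] at h4
      rcases h4 with rfl | rfl | h4
      · exact absurd (by simp) (Set.disjoint_left.1 hdis hi)
      · exact absurd (by simp) (Set.disjoint_left.1 hdis hi)
      · exact h4
    rwa [e] at hp
  have hq : ∀ p, Arc T z' p (T p) → T p ⊆ T z' → (T p).ncard = 2 → z' = z ∨ T p = {a, b} := by
    intro p hp hps hpc
    rcases h.pairs_disjoint hmin hz'4 hp.1 hA.1 hps (by rw [hTA]; exact habs) hpc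
      (by rw [hTA, Set.ncard_pair hab]) with heq | hdis
    · right; rw [heq, hTA]
    · left; exact hpair p hp hps hpc (by rw [← hTA]; exact hdis)
  rcases hq p1 (by rw [hT1]; exact hp1) h1s (by rw [hT1, Set.ncard_pair hD.ab]) with h4 | h4
  · exact h4
  rcases hq p2 (by rw [hT2]; exact hp2) h2s (by rw [hT2, Set.ncard_pair hD.cd]) with h5 | h5
  · exact h5
  exfalso
  rw [hT1] at h4
  rw [hT2] at h5
  have h6 : a' ∈ ({c', d'} : Set (Fin 6)) := by rw [h5, ← h4]; simp
  rcases h6 with h6 | h6
  · exact hD.ac h6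
  · exact hD.ad h6

/-- the two-pair points -/
def Dset (T : ℂ → Set (Fin 6)) : Set ℂ := {z | ∃ a b c d, DPt T z a b c d}

theorem four_of_DPt {z : ℂ} {a b c d : Fin 6} (hD : DPt T z a b c d) : (T z).ncard = 4 := by
  rw [hD.pal, Set.ncard_insert_of_notMem, Set.ncard_insert_of_notMem, Set.ncard_pair hD.cd]
  · simp only [mem_insert_iff, mem_singleton_iff, not_or]
    exact ⟨hD.bc, hD.bd⟩
  · simp only [mem_insert_iff, mem_singleton_iff, not_or]
    exact ⟨hD.ab, hD.ac, hD.ad⟩

/-- a limit of two-pair points has at least four colours -/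
theorem Irr.four_of_closure (h : Irr U T) {z : ℂ} (hz : z ∈ closure (Dset T)) :
    4 ≤ (T z).ncard := by
  obtain ⟨z', ⟨h1, a, b, c, d, hD⟩⟩ := mem_closure_iff_nhds.1 hz _ (h.nhd z)
  rw [← four_of_DPt hD]
  exact Set.ncard_le_ncard h1 (Set.toFinite _)

/-- a limit of two-pair points with four colours is a two-pair point, if its circle has a point
with palette inside -/
theorem Irr.mem_of_closure (h : Irr U T) (hmin : Mn U T) {z : ℂ} (hz : (T z).ncard = 4)
    (hM : ∃ y, dist y z = 1 ∧ T y ⊆ T z) (hc : z ∈ closure (Dset T)) : z ∈ Dset T := by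
  obtain ⟨z', h1, h2⟩ := mem_closure_iff_nhds.1 hc _ (h.isolated_D hmin hz hM)
  exact h1 h2 ▸ h2

/-- **Corollary 2**: closed -/
theorem Irr.isClosed_D (h : Irr U T) (hmin : Mn U T) (h4 : ∀ z, (T z).ncard ≤ 4) :
    IsClosed (Dset T) := by
  refine isClosed_of_closure_subset fun z hz => ?_
  have hz4 : (T z).ncard = 4 := le_antisymm (h4 z) (h.four_of_closure hz)
  exact h.mem_of_closure hmin hz4 (h.exists_inside hz4 fun y _ => h4 y) hz

/-- **Corollary 2**: every point has a neighbourhood with at most one two-pair point -/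
theorem Irr.isolated_D' (h : Irr U T) (hmin : Mn U T) (h4 : ∀ z, (T z).ncard ≤ 4) (z : ℂ) :
    ∀ᶠ z' in 𝓝 z, z' ∈ Dset T → z' = z := by
  by_cases hz : z ∈ closure (Dset T)
  · have hz4 : (T z).ncard = 4 := le_antisymm (h4 z) (h.four_of_closure hz)
    exact h.isolated_D hmin hz4 (h.exists_inside hz4 fun y _ => h4 y)
  · filter_upwards [isClosed_closure.isOpen_compl.mem_nhds hz] with z' hz' h1
    exact absurd (subset_closure h1) hz'

/-- **Corollary 2**: finitely many two-pair points in every disc -/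
theorem Irr.finite_D (h : Irr U T) (hmin : Mn U T) (h4 : ∀ z, (T z).ncard ≤ 4) (c : ℂ) (R : ℝ) :
    (Dset T ∩ closedBall c R).Finite := by
  by_contra hinf
  obtain ⟨z, -, hz⟩ := Set.Infinite.exists_accPt_of_subset_isCompact hinf
    (isCompact_closedBall c R) inter_subset_right
  have h1 := h.isolated_D' hmin h4 z
  rw [accPt_iff_frequently] at hz
  refine hz ?_
  filter_upwards [h1] with z' hz' h2
  exact h2.1 (hz' h2.2.1)

/-- the same with no unit pair of a point with at least five and a point with at least four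
colours: the two-pair points near a four-coloured point -/
theorem Irr.isolated_D_of (h : Irr U T) (hmin : Mn U T)
    (h54 : ∀ x y, 5 ≤ (T x).ncard → 4 ≤ (T y).ncard → dist x y ≠ 1) {z : ℂ}
    (hz : (T z).ncard = 4) : ∀ᶠ z' in 𝓝 z, z' ∈ Dset T → z' = z :=
  h.isolated_D hmin hz (h.exists_inside hz fun y hy => by
    by_contra hcon
    exact h54 y z (by omega) (by omega) hy)

end Vale.Agent.P032.Six
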