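import Vale.Agent.P032.S5.H483.Irr

/-!
# P032: the half-plane rule (helper403)

`side403` : a connected set of points with the colour `i` is on one side of the unit circle of a point
of `U i`.
`hp403` : `i ∈ T y`, two connected sets of points with the colour `i` through `V`, one with a point
inside `S(y)`, the other one with a point outside: impossible.
`hp2_403` : `T r ⊆ {i, j}`, `|r - V| = 1`, connected sets of points with the colours `i` resp. `j`
through `V`, both with a point inside `S(r)`: impossible; `hp3_403` : the same with both outside.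
-/

open Set Filter Topology Metric

noncomputable section

namespace Vale.Agent.P032.H403

open Vale.Agent.P032.Six

variable {k : ℕ} {U : Fin k → Set ℂ} {T : ℂ → Set (Fin k)}

/-- a connected set of points with the colour `i` is on one side of the circle of a point of `U i` -/
theorem side403 (h : Irr U T) {i : Fin k} {S : Set ℂ} (hS : IsPreconnected S)
    (hi : ∀ w ∈ S, i ∈ T w) {g : ℂ} (hg : g ∈ U i) {V p : ℂ} (hV : V ∈ S) (hp : p ∈ S)
    (h1 : dist g p < 1) : dist g V < 1 := by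
  by_contra hcon
  push Not at hcon
  have hc : ContinuousOn (fun w => dist g w) S := (continuous_const.dist continuous_id).continuousOn
  obtain ⟨w, hw, hw1⟩ := hS.intermediate_value hp hV hc ⟨h1.le, hcon⟩
  exact h.mx.free i g hg w (h.sub _ (hi w hw)) hw1

theorem side403' (h : Irr U T) {i : Fin k} {S : Set ℂ} (hS : IsPreconnected S)
    (hi : ∀ w ∈ S, i ∈ T w) {g : ℂ} (hg : g ∈ U i) {V p : ℂ} (hV : V ∈ S) (hp : p ∈ S)
    (h1 : 1 < dist g p) : 1 < dist g V := by
  by_contra hcon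
  push Not at hcon
  have hc : ContinuousOn (fun w => dist g w) S := (continuous_const.dist continuous_id).continuousOn
  obtain ⟨w, hw, hw1⟩ := hS.intermediate_value hV hp hc ⟨hcon, h1.le⟩
  exact h.mx.free i g hg w (h.sub _ (hi w hw)) hw1

/-- **the half-plane rule**: near `y`, all of `U i` is on the side of `S(V)` given by a germ -/
theorem in_of403 (h : Irr U T) {i : Fin k} {V y : ℂ} {S : Set ℂ} (hS : IsPreconnected S)
    (hV : V ∈ S) (hi : ∀ w ∈ S, i ∈ T w) {p : ℂ} (hp : p ∈ S) (hpy : dist p y < 1) :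
    ∀ᶠ g in 𝓝 y, g ∈ U i → dist g V < 1 := by
  have h1 : ∀ᶠ g in 𝓝 y, dist g p < 1 :=
    (continuous_id.dist continuous_const).continuousAt.eventually_lt continuousAt_const
      (by rw [dist_comm] at hpy; exact hpy)
  filter_upwards [h1] with g h1 hg
  exact side403 h hS hi hg hV hp h1

theorem out_of403 (h : Irr U T) {i : Fin k} {V y : ℂ} {S : Set ℂ} (hS : IsPreconnected S)
    (hV : V ∈ S) (hi : ∀ w ∈ S, i ∈ T w) {p : ℂ} (hp : p ∈ S) (hpy : 1 < dist p y) :
    ∀ᶠ g in 𝓝 y, g ∈ U i → 1 < dist g V := by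
  have h1 : ∀ᶠ g in 𝓝 y, 1 < dist g p :=
    continuousAt_const.eventually_lt (continuous_id.dist continuous_const).continuousAt
      (by rw [dist_comm] at hpy; exact hpy)
  filter_upwards [h1] with g h1 hg
  exact side403' h hS hi hg hV hp h1

/-- **(HP)** two germs of the colour `i` at `V` on different sides of `S(y)`: `i ∉ T y` -/
theorem hp403 (h : Irr U T) {i : Fin k} {V y : ℂ} (hy : i ∈ T y) {S S' : Set ℂ}
    (hS : IsPreconnected S) (hS' : IsPreconnected S') (hV : V ∈ S) (hV' : V ∈ S')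
    (hi : ∀ w ∈ S, i ∈ T w) (hi' : ∀ w ∈ S', i ∈ T w) {p q : ℂ} (hp : p ∈ S) (hq : q ∈ S')
    (hpy : dist p y < 1) (hqy : 1 < dist q y) : False := by
  have h1 := in_of403 h hS hV hi hp hpy
  have h2 := out_of403 h hS' hV' hi' hq hqy
  obtain ⟨g, hg, h3, h4⟩ := ((mem_closure_iff_frequently.1 (h.sub y hy)).and_eventually
    (h1.and h2)).exists
  exact lt_asymm (h3 hg) (h4 hg)

/-- near `r` there are points of `U i` or `U j` outside `S(V)`, if `T r ⊆ {i, j}` -/
theorem ex_out403 (h : Irr U T) {i j : Fin k} {V r : ℂ} (hr : T r ⊆ {i, j})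
    (hrV : dist r V = 1) : ∃ᶠ g in 𝓝 r, (g ∈ U i ∨ g ∈ U j) ∧ 1 < dist g V := by
  have hev : ∀ᶠ w in 𝓝 r, T w ⊆ {i, j} := by
    have : ∀ l : Fin k, l ∉ T r → ∀ᶠ w in 𝓝 r, l ∉ T w := fun l hl =>
      (h.closed l).isOpen_compl.mem_nhds hl
    have h2 : ∀ᶠ w in 𝓝 r, ∀ l : Fin k, l ∉ T r → l ∉ T w := by
      rw [eventually_all]
      intro l
      by_cases hl : l ∈ T r
      · exact Eventually.of_forall fun w hw => absurd hl hw
      · filter_upwards [this l hl] with w hw _ using hw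
    filter_upwards [h2] with w hw l hl
    by_contra hcon
    exact hw l (fun h => hcon (hr h)) hl
  rw [frequently_iff]
  intro s hs
  obtain ⟨ε, hε, hball⟩ := Metric.mem_nhds_iff.1 (inter_mem hs hev)
  -- a point outside near `r`
  have hw : dist (r + (ε / 2 : ℝ) • (r - V)) V = 1 + ε / 2 := by
    have h1 : r + (ε / 2 : ℝ) • (r - V) - V = (1 + ε / 2 : ℝ) • (r - V) := by
      rw [add_smul, one_smul]; ring
    rw [dist_eq_norm, h1, norm_smul, ← dist_eq_norm, hrV, Real.norm_eq_abs, abs_of_pos (by linarith)]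
    ring
  set w := r + (ε / 2 : ℝ) • (r - V) with hwdef
  have hwr : dist w r < ε := by
    have h1 : w - r = (ε / 2 : ℝ) • (r - V) := by rw [hwdef]; ring
    rw [dist_eq_norm, h1, norm_smul, ← dist_eq_norm, hrV, Real.norm_eq_abs, abs_of_pos (by linarith)]
    linarith
  obtain ⟨l, hl⟩ := h.ne w
  have hlij : l = i ∨ l = j := by
    have := (hball (mem_ball.2 hwr)).2 hl
    simpa using this
  have hcl : w ∈ closure (U l) := h.sub w hl
  have hopen : ball r ε ∩ {g | 1 < dist g V} ∈ 𝓝 w := by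
    refine inter_mem (isOpen_ball.mem_nhds (mem_ball.2 hwr)) ?_
    refine (isOpen_lt continuous_const (continuous_id.dist continuous_const)).mem_nhds ?_
    show 1 < dist w V
    rw [hw]; linarith
  obtain ⟨g, hg1, hg2⟩ := mem_closure_iff_nhds.1 hcl _ hopen
  refine ⟨g, (hball hg1.1).1, ?_, hg1.2⟩
  rcases hlij with rfl | rfl
  · exact Or.inl hg2
  · exact Or.inr hg2

/-- near `r` there are points of `U i` or `U j` inside `S(V)`, if `T r ⊆ {i, j}` -/
theorem ex_in403 (h : Irr U T) {i j : Fin k} {V r : ℂ} (hr : T r ⊆ {i, j})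
    (hrV : dist r V = 1) : ∃ᶠ g in 𝓝 r, (g ∈ U i ∨ g ∈ U j) ∧ dist g V < 1 := by
  have hev : ∀ᶠ w in 𝓝 r, T w ⊆ {i, j} := by
    have : ∀ l : Fin k, l ∉ T r → ∀ᶠ w in 𝓝 r, l ∉ T w := fun l hl =>
      (h.closed l).isOpen_compl.mem_nhds hl
    have h2 : ∀ᶠ w in 𝓝 r, ∀ l : Fin k, l ∉ T r → l ∉ T w := by
      rw [eventually_all]
      intro l
      by_cases hl : l ∈ T r
      · exact Eventually.of_forall fun w hw => absurd hl hw
      · filter_upwards [this l hl] with w hw _ using hw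
    filter_upwards [h2] with w hw l hl
    by_contra hcon
    exact hw l (fun h => hcon (hr h)) hl
  rw [frequently_iff]
  intro s hs
  obtain ⟨ε₀, hε₀, hball₀⟩ := Metric.mem_nhds_iff.1 (inter_mem hs hev)
  obtain ⟨ε, hε, hε1, hε2⟩ : ∃ ε : ℝ, 0 < ε ∧ ε ≤ ε₀ ∧ ε ≤ 1 :=
    ⟨min ε₀ 1, lt_min hε₀ one_pos, min_le_left _ _, min_le_right _ _⟩
  have hball : ball r ε ⊆ s ∩ {w | T w ⊆ {i, j}} := (ball_subset_ball hε1).trans hball₀
  have hw : dist (r - (ε / 2 : ℝ) • (r - V)) V = 1 - ε / 2 := by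
    have h1 : r - (ε / 2 : ℝ) • (r - V) - V = (1 - ε / 2 : ℝ) • (r - V) := by
      rw [sub_smul, one_smul]; ring
    rw [dist_eq_norm] at hrV ⊢
    rw [h1, norm_smul, hrV, Real.norm_eq_abs, abs_of_pos (by linarith)]
    ring
  set w := r - (ε / 2 : ℝ) • (r - V) with hwdef
  have hwr : dist w r < ε := by
    have h1 : w - r = -((ε / 2 : ℝ) • (r - V)) := by rw [hwdef]; ring
    rw [dist_eq_norm, h1, norm_neg, norm_smul, ← dist_eq_norm, hrV, Real.norm_eq_abs,
      abs_of_pos (by linarith)]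
    linarith
  obtain ⟨l, hl⟩ := h.ne w
  have hlij : l = i ∨ l = j := by
    have := (hball (mem_ball.2 hwr)).2 hl
    simpa using this
  have hcl : w ∈ closure (U l) := h.sub w hl
  have hopen : ball r ε ∩ {g | dist g V < 1} ∈ 𝓝 w := by
    refine inter_mem (isOpen_ball.mem_nhds (mem_ball.2 hwr)) ?_
    refine (isOpen_lt (continuous_id.dist continuous_const) continuous_const).mem_nhds ?_
    show dist w V < 1
    rw [hw]; linarith
  obtain ⟨g, hg1, hg2⟩ := mem_closure_iff_nhds.1 hcl _ hopen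
  refine ⟨g, (hball hg1.1).1, ?_, hg1.2⟩
  rcases hlij with rfl | rfl
  · exact Or.inl hg2
  · exact Or.inr hg2

/-- **two colours, both towards `r`** -/
theorem hp2_403 (h : Irr U T) {i j : Fin k} {V r : ℂ} (hr : T r ⊆ {i, j}) (hrV : dist r V = 1)
    {S S' : Set ℂ} (hS : IsPreconnected S) (hS' : IsPreconnected S') (hV : V ∈ S) (hV' : V ∈ S')
    (hi : ∀ w ∈ S, i ∈ T w) (hj : ∀ w ∈ S', j ∈ T w) {p q : ℂ} (hp : p ∈ S) (hq : q ∈ S')
    (hpr : dist p r < 1) (hqr : dist q r < 1) : False := by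
  obtain ⟨g, ⟨h1, h2⟩, h3, h4⟩ := ((ex_out403 h hr hrV).and_eventually
    ((in_of403 h hS hV hi hp hpr).and (in_of403 h hS' hV' hj hq hqr))).exists
  rcases h1 with h1 | h1
  · exact lt_asymm (h3 h1) h2
  · exact lt_asymm (h4 h1) h2

/-- **two colours, both away from `r`** -/
theorem hp3_403 (h : Irr U T) {i j : Fin k} {V r : ℂ} (hr : T r ⊆ {i, j}) (hrV : dist r V = 1)
    {S S' : Set ℂ} (hS : IsPreconnected S) (hS' : IsPreconnected S') (hV : V ∈ S) (hV' : V ∈ S')
    (hi : ∀ w ∈ S, i ∈ T w) (hj : ∀ w ∈ S', j ∈ T w) {p q : ℂ} (hp : p ∈ S) (hq : q ∈ S')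
    (hpr : 1 < dist p r) (hqr : 1 < dist q r) : False := by
  obtain ⟨g, ⟨h1, h2⟩, h3, h4⟩ := ((ex_in403 h hr hrV).and_eventually
    ((out_of403 h hS hV hi hp hpr).and (out_of403 h hS' hV' hj hq hqr))).exists
  rcases h1 with h1 | h1
  · exact lt_asymm (h3 h1) h2
  · exact lt_asymm (h4 h1) h2

end Vale.Agent.P032.H403
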