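import Vale.Agent.P032.S5.H555.Chord

/-!
# P032: isolation at a point with a cut pair (wild, no hypothesis on the circle)

`T z = {a, b} ∪ ({x} ∪ Y)`, `{a, b}` and all `{x, y}`, `y ∈ Y`, are exact pairs of `S(z)`:
`Irr.iso_cut`: no point `p ≠ z` near `z` has both colours `a`, `b`;
`Irr.sep_cut`: near `z` the colours `a` and `b` are strictly on different sides of the line
orthogonal to `q - z`.
-/

open Set Filter Topology Metric

noncomputable section

namespace Vale.Agent.P032.Six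

theorem sq_norm403 (a : ℂ) : ‖a‖ ^ 2 = a.re ^ 2 + a.im ^ 2 := by
  rw [Complex.sq_norm, Complex.normSq_apply]; ring

theorem ip_add403 (a b c : ℂ) : ip (a + b) c = ip a c + ip b c := by
  unfold ip; simp; ring

theorem ip_smul403 (t : ℝ) (a b : ℂ) : ip (t * a) b = t * ip a b := by
  unfold ip; simp; ring

/-- a circle through `p` which does not meet the ray `o + t m`: the position of `o` -/
theorem ray_sign403 {o p m n : ℂ} {r : ℝ} (hr0 : 0 < r) (hr1 : r ≤ 1) (hm : ‖m‖ = 1)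
    (hn : ‖n‖ = 1) (hs : r ≤ |ip m n|) (hη : 5 * ‖o - p‖ < r * |ip m n|)
    (hne : ∀ t : ℝ, 0 < t → t ≤ r → dist (o + t * m) (p + n) ≠ 1) :
    (‖o - p‖ ^ 2 - 2 * ip (o - p) n) * ip m n ≤ 0 := by
  obtain ⟨f, hf⟩ : ∃ f : ℝ → ℝ, f = fun t => ‖o - p‖ ^ 2 + 2 * t * ip (o - p) m + t ^ 2 -
    2 * ip (o - p) n - 2 * t * ip m n := ⟨_, rfl⟩
  have hm2 := sq_norm403 m
  have hn2 := sq_norm403 n
  rw [hm] at hm2
  rw [hn] at hn2
  have hfd : ∀ t : ℝ, dist (o + t * m) (p + n) ^ 2 = 1 + f t := by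
    intro t
    rw [hf, dist_eq_norm]
    simp only
    rw [sq_norm403, sq_norm403]
    unfold ip
    simp
    linear_combination (t ^ 2) * (-hm2) - hn2
  have hf0 : ∀ t : ℝ, 0 < t → t ≤ r → f t ≠ 0 := by
    intro t h1 h2 h3
    have h4 := hfd t
    rw [h3, add_zero] at h4
    have h5 : dist (o + t * m) (p + n) = 1 := by
      have h6 := dist_nonneg (x := o + t * m) (y := p + n)
      nlinarith
    exact hne t h1 h2 h5
  have hfc : Continuous f := by rw [hf]; fun_prop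
  have e0 : f 0 = ‖o - p‖ ^ 2 - 2 * ip (o - p) n := by rw [hf]; simp
  have k1 : |ip (o - p) m| ≤ ‖o - p‖ := by
    have := abs_ip_le555 (o - p) m
    rwa [hm, mul_one] at this
  have k2 : |ip (o - p) n| ≤ ‖o - p‖ := by
    have := abs_ip_le555 (o - p) n
    rwa [hn, mul_one] at this
  have k3 : |ip m n| ≤ 1 := by
    have := abs_ip_le555 m n
    rwa [hm, hn, mul_one] at this
  have hη0 := norm_nonneg (o - p)
  have hη1 : ‖o - p‖ ≤ 1 := by nlinarith [abs_nonneg (ip m n)]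
  have k4 := abs_le.1 k1
  have k5 := abs_le.1 k2
  have er : f r = ‖o - p‖ ^ 2 + 2 * r * ip (o - p) m + r ^ 2 - 2 * ip (o - p) n -
    2 * r * ip m n := by rw [hf]
  have b1 : 2 * r * ip (o - p) m ≤ 2 * ‖o - p‖ := by nlinarith
  have b2 : -(2 * ‖o - p‖) ≤ 2 * r * ip (o - p) m := by nlinarith
  rw [← e0]
  rcases lt_trichotomy (ip m n) 0 with hneg | hzero | hpos
  · rw [abs_of_neg hneg] at hs hη
    have hfr : 0 < f r := by
      rw [er]
      nlinarith [sq_nonneg ‖o - p‖, sq_nonneg r]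
    by_contra hcon
    push Not at hcon
    have h1 : f 0 < 0 := by
      by_contra h2
      push Not at h2
      nlinarith
    obtain ⟨t, ht, ht0⟩ := intermediate_value_Icc hr0.le hfc.continuousOn ⟨h1.le, hfr.le⟩
    rcases eq_or_lt_of_le ht.1 with h2 | h2
    · rw [← h2] at ht0; linarith
    · exact hf0 t h2 ht.2 ht0
  · rw [hzero]; simp
  · rw [abs_of_pos hpos] at hs hη
    have hfr : f r < 0 := by
      rw [er]
      have h2 : ‖o - p‖ ^ 2 ≤ ‖o - p‖ := by nlinarith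
      have h3 : r ^ 2 ≤ r * ip m n := by nlinarith
      nlinarith
    by_contra hcon
    push Not at hcon
    have h1 : 0 < f 0 := by
      by_contra h2
      push Not at h2
      nlinarith
    obtain ⟨t, ht, ht0⟩ := intermediate_value_Icc' hr0.le hfc.continuousOn ⟨hfr.le, h1.le⟩
    rcases eq_or_lt_of_le ht.1 with h2 | h2
    · rw [← h2] at ht0; linarith
    · exact hf0 t h2 ht.2 ht0

/-- two bounds for transversal unit vectors -/
theorem cr_bound403 {δ n1 n2 : ℂ} (h1 : ‖n1‖ = 1) (h2 : ‖n2‖ = 1) :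
    ‖δ‖ * |cr n1 n2| ≤ |ip δ n1| + |ip δ n2| := by
  have e1 : ∀ u : ℂ, ‖u‖ = 1 → |cr n1 n2| ≤ |ip u n1| + |ip u n2| := by
    intro u hu
    have hu2 := ip_sq hu
    have e1 : cr n1 n2 = ip u n1 * ip (u * Complex.I) n2 -
        ip (u * Complex.I) n1 * ip u n2 := by
      unfold cr ip
      simp
      linear_combination (-(n1.re * n2.im - n1.im * n2.re)) * hu2
    have k1 : |ip (u * Complex.I) n2| ≤ 1 := by
      have := abs_ip_le555 (u * Complex.I) n2
      rwa [norm_mul, hu, h2, Complex.norm_I, one_mul, one_mul] at this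
    have k2 : |ip (u * Complex.I) n1| ≤ 1 := by
      have := abs_ip_le555 (u * Complex.I) n1
      rwa [norm_mul, hu, h1, Complex.norm_I, one_mul, one_mul] at this
    rw [e1]
    refine (abs_sub _ _).trans ?_
    rw [abs_mul, abs_mul]
    have k4 : |ip u n1| * |ip (u * Complex.I) n2| ≤ |ip u n1| * 1 :=
      mul_le_mul_of_nonneg_left k1 (abs_nonneg _)
    have k5 : |ip (u * Complex.I) n1| * |ip u n2| ≤ 1 * |ip u n2| :=
      mul_le_mul_of_nonneg_right k2 (abs_nonneg _)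
    linarith
  by_cases h0 : δ = 0
  · rw [h0, norm_zero, zero_mul]; positivity
  have hδ : 0 < ‖δ‖ := norm_pos_iff.2 h0
  have h3 := e1 ((‖δ‖⁻¹ : ℝ) * δ) (by
    rw [norm_mul, Complex.norm_real, norm_inv, norm_norm, inv_mul_cancel₀ hδ.ne'])
  rw [ip_smul403, ip_smul403, abs_mul, abs_mul, abs_of_pos (inv_pos.2 hδ)] at h3
  calc ‖δ‖ * |cr n1 n2| ≤ ‖δ‖ * (‖δ‖⁻¹ * |ip δ n1| + ‖δ‖⁻¹ * |ip δ n2|) :=
        mul_le_mul_of_nonneg_left h3 hδ.le
    _ = |ip δ n1| + |ip δ n2| := by field_simp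

namespace Irr

variable {k : ℕ} {U : Fin k → Set ℂ} {T : ℂ → Set (Fin k)}

/-- a ray of one type at `z` and a point `p` near `z` with both colours of the pair: the parallel
ray at `p` has the same type, up to a uniform length -/
theorem ray_ext403 (h : Irr U T) {z q : ℂ} {a b : Fin k} {X Y : Set (Fin k)}
    (hXY : Disjoint X Y) (haz : a ∈ T z) (hbz : b ∈ T z)
    (hsp : ∀ᶠ w in 𝓝 z, a ∉ T w → b ∉ T w → T w ⊆ X ∨ T w ⊆ Y) (hq : dist q z = 1)
    (hT : T q ⊆ {a, b}) {m : ℂ}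
    (hm : m = Complex.I * (q - z) ∨ m = -(Complex.I * (q - z)))
    (hray : ∃ᶠ t : ℝ in 𝓝[>] 0, T (z + t * m) ⊆ X) :
    ∀ᶠ r : ℝ in 𝓝[>] 0, ∀ᶠ p in 𝓝 z, a ∈ T p → b ∈ T p →
      ∀ t : ℝ, 0 < t → t ≤ r → T (p + t * m) ⊆ X := by
  have hn1 : ‖q - z‖ = 1 := by rw [← dist_eq_norm]; exact hq
  have hm1 : ‖m‖ = 1 := by
    rcases hm with rfl | rfl
    · rw [norm_mul, Complex.norm_I, hn1, one_mul]
    · rw [norm_neg, norm_mul, Complex.norm_I, hn1, one_mul]
  have hmn : ip m (q - z) = 0 := by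
    rcases hm with rfl | rfl <;> · unfold ip; simp; ring
  have hmm : ip m m = 1 := by
    have := ip_sq hm1
    unfold ip
    nlinarith
  obtain ⟨R, hR, hRs⟩ := Metric.eventually_nhds_iff.1 hsp
  have hcr1 := h.cross hq hT
  have hcr2 := h.cross hq (a := b) (b := a) (by rw [Set.pair_comm]; exact hT)
  obtain ⟨ε, ⟨he1, he2⟩, hε0⟩ := ((hcr1.and hcr2).and eventually_mem_nhdsWithin).exists
  have hε0 : 0 < ε := hε0
  obtain ⟨c, hc, hc0⟩ := ((h.cone_type555 hXY haz hbz hsp hq hT hm hray).and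
    eventually_mem_nhdsWithin).exists
  have hc0 : 0 < c := hc0
  filter_upwards [self_mem_nhdsWithin, mem_nhdsWithin_of_mem_nhds (Iio_mem_nhds
    (show (0 : ℝ) < min (min (ε / 2) (R / 2)) (c / 2) by positivity))] with r hr0 hr
  have hr0 : 0 < r := hr0
  have hr : r < min (min (ε / 2) (R / 2)) (c / 2) := hr
  have hrε : r < ε / 2 := lt_of_lt_of_le hr ((min_le_left _ _).trans (min_le_left _ _))
  have hrR : r < R / 2 := lt_of_lt_of_le hr ((min_le_left _ _).trans (min_le_right _ _))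
  have hrc : r < c / 2 := lt_of_lt_of_le hr (min_le_right _ _)
  obtain ⟨η, hη⟩ : ∃ η, η = min (r / 2) (c * r / 2) := ⟨_, rfl⟩
  have hη0 : 0 < η := by rw [hη]; positivity
  have hη1 : η ≤ r / 2 := by rw [hη]; exact min_le_left _ _
  have hη2 : η ≤ c * r / 2 := by rw [hη]; exact min_le_right _ _
  filter_upwards [ball_mem_nhds z hη0] with p hp hap hbp t ht0 htr
  rw [mem_ball] at hp
  have hpz : ‖p - z‖ < η := by rw [← dist_eq_norm]; exact hp
  have hdz : ∀ s : ℝ, 0 < s → s ≤ r → dist (p + s * m) z < r + η := by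
    intro s h1 h2
    have h3 : dist (p + s * m) p = s := by
      rw [dist_eq_norm, add_sub_cancel_left, norm_mul, hm1, mul_one, Complex.norm_real,
        Real.norm_of_nonneg h1.le]
    have h4 := dist_triangle (p + s * m) p z
    linarith
  have hfree : ∀ s : ℝ, 0 < s → s ≤ r → a ∉ T (p + s * m) ∧ b ∉ T (p + s * m) := by
    intro s h1 h2
    have hd := hdz s h1 h2
    have hne : p + s * m ≠ p := by
      intro h3
      have h4 : (s : ℂ) * m = 0 := by linear_combination h3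
      have h5 := congrArg norm h4
      rw [norm_mul, hm1, mul_one, Complex.norm_real, Real.norm_of_nonneg h1.le, norm_zero] at h5
      linarith
    have hdp : 0 < dist (p + s * m) p := dist_pos.2 hne
    have hip : ip (p - (p + s * m)) (q - z) = 0 := by
      have : p - (p + s * m) = ((-s : ℝ) : ℂ) * m := by push_cast; ring
      rw [this, ip_smul403, hmn, mul_zero]
    constructor
    · intro h3
      have h4 := he1 (p + s * m) p (by linarith) (by linarith) h3 hbp hne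
      rw [hip, abs_zero] at h4
      have := mul_pos hε0 hdp
      linarith
    · intro h3
      have h4 := he2 (p + s * m) p (by linarith) (by linarith) h3 hap hne
      rw [hip, abs_zero] at h4
      have := mul_pos hε0 hdp
      linarith
  have htype : ∀ s : ℝ, 0 < s → s ≤ r → T (p + s * m) ⊆ X ∨ T (p + s * m) ⊆ Y := by
    intro s h1 h2
    have hd := hdz s h1 h2
    exact hRs (by linarith) (hfree s h1 h2).1 (hfree s h1 h2).2
  have hend : T (p + r * m) ⊆ X := by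
    have e1 : p + r * m - z = (p - z) + r * m := by ring
    have k1 : |ip (p - z) m| ≤ ‖p - z‖ := by
      have := abs_ip_le555 (p - z) m
      rwa [hm1, mul_one] at this
    have k2 : |ip (p - z) (q - z)| ≤ ‖p - z‖ := by
      have := abs_ip_le555 (p - z) (q - z)
      rwa [hn1, mul_one] at this
    have e2 : ip (p + r * m - z) m = ip (p - z) m + r := by
      rw [e1, ip_add403, ip_smul403, hmm, mul_one]
    have e3 : ip (p + r * m - z) (q - z) = ip (p - z) (q - z) := by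
      rw [e1, ip_add403, ip_smul403, hmn, mul_zero, add_zero]
    have k3 := (abs_le.1 k1).1
    have k4 : r / 2 ≤ ip (p - z) m + r := by linarith
    refine hc _ ?_ ?_ ?_
    · have := hdz r hr0 le_rfl
      linarith
    · rw [e2]; linarith
    · rw [e3, e2]
      have : c * (r / 2) ≤ c * (ip (p - z) m + r) := mul_le_mul_of_nonneg_left k4 hc0.le
      linarith
  by_contra hcon
  have hcl1 : IsClosed (⋃ i ∈ X, {x | i ∈ T x}) :=
    (Set.toFinite _).isClosed_biUnion fun i _ => h.closed i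
  have hcl2 : IsClosed (⋃ i ∈ Y, {x | i ∈ T x}) :=
    (Set.toFinite _).isClosed_biUnion fun i _ => h.closed i
  have hcont : Continuous fun s : ℝ => p + (s : ℂ) * m := by fun_prop
  have hpre := (isPreconnected_Icc (a := t) (b := r)).image _ hcont.continuousOn
  have hmem : ∀ S : Set (Fin k), ∀ x, T x ⊆ S → x ∈ ⋃ i ∈ S, {x | i ∈ T x} := by
    intro S x hx
    obtain ⟨i, hi⟩ := h.ne x
    exact mem_iUnion₂.2 ⟨i, hx hi, hi⟩
  obtain ⟨y, ⟨s, hs, hsy⟩, hp1, hp2⟩ := isPreconnected_closed_iff.1 hpre _ _ hcl1 hcl2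
    (by
      rintro _ ⟨s, hs, rfl⟩
      rcases htype s (lt_of_lt_of_le ht0 hs.1) hs.2 with h1 | h1
      · exact Or.inl (hmem _ _ h1)
      · exact Or.inr (hmem _ _ h1))
    ⟨p + r * m, ⟨r, ⟨htr, le_rfl⟩, rfl⟩, hmem _ _ hend⟩
    ⟨p + t * m, ⟨t, ⟨le_rfl, htr⟩, rfl⟩, by
      rcases htype t ht0 htr with h1 | h1
      · exact absurd h1 hcon
      · exact hmem _ _ h1⟩
  obtain ⟨i, hiX, hi⟩ := mem_iUnion₂.1 hp1
  obtain ⟨j, hjY, hj⟩ := mem_iUnion₂.1 hp2
  have hsy : p + (s : ℂ) * m = y := hsy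
  rcases htype s (lt_of_lt_of_le ht0 hs.1) hs.2 with h1 | h1
  · rw [hsy] at h1
    exact Set.disjoint_left.1 hXY (h1 hj) hjY
  · rw [hsy] at h1
    exact Set.disjoint_left.1 hXY hiX (h1 hi)

/-- the end point of a ray of type `X` has a colour of `X` -/
theorem mem_of_ray403 (h : Irr U T) {p m : ℂ} {X : Set (Fin k)} {r : ℝ} (hr : 0 < r)
    (hray : ∀ t : ℝ, 0 < t → t ≤ r → T (p + t * m) ⊆ X) : ∃ i ∈ X, i ∈ T p := by
  have hcl : IsClosed (⋃ i ∈ X, {x | i ∈ T x}) :=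
    (Set.toFinite _).isClosed_biUnion fun i _ => h.closed i
  have ht : Tendsto (fun t : ℝ => p + t * m) (𝓝[>] 0) (𝓝 p) := by
    have hcc : Continuous fun t : ℝ => p + (t : ℂ) * m := by fun_prop
    have h1 := (hcc.tendsto 0).mono_left (nhdsWithin_le_nhds (s := Ioi 0))
    simpa using h1
  have hev : ∀ᶠ t : ℝ in 𝓝[>] 0, p + t * m ∈ ⋃ i ∈ X, {x | i ∈ T x} := by
    filter_upwards [Ioo_mem_nhdsGT hr] with t ht
    obtain ⟨i, hi⟩ := h.ne (p + t * m)
    exact mem_iUnion₂.2 ⟨i, hray t ht.1 ht.2.le hi, hi⟩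
  obtain ⟨i, hi, hip⟩ := mem_iUnion₂.1 (hcl.mem_of_tendsto ht hev)
  exact ⟨i, hi, hip⟩

/-- one colour of the other side -/
theorem iso_aux403 (h : Irr U T) {z q q' : ℂ} {a b x y : Fin k} {Y : Set (Fin k)}
    (hXY : Disjoint {x} Y) (haz : a ∈ T z) (hbz : b ∈ T z) (hxz : x ∈ T z) (hyz : y ∈ T z)
    (hsp : ∀ᶠ w in 𝓝 z, a ∉ T w → b ∉ T w → T w ⊆ {x} ∨ T w ⊆ Y) (hq : dist q z = 1)
    (hT : T q = {a, b}) {m : ℂ}
    (hm : m = Complex.I * (q - z) ∨ m = -(Complex.I * (q - z)))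
    (hray : ∃ᶠ t : ℝ in 𝓝[>] 0, T (z + t * m) ⊆ {x}) (hq' : dist q' z = 1)
    (hT' : T q' = {x, y}) :
    ∀ᶠ p in 𝓝 z, a ∈ T p → b ∈ T p → x ∈ T p → y ∈ T p → p = z := by
  have hn1 : ‖q - z‖ = 1 := by rw [← dist_eq_norm]; exact hq
  have hm1 : ‖m‖ = 1 := by
    rcases hm with rfl | rfl
    · rw [norm_mul, Complex.norm_I, hn1, one_mul]
    · rw [norm_neg, norm_mul, Complex.norm_I, hn1, one_mul]
  obtain ⟨n, hn, hTn, -, -, c0, hc0cr, hc00, hc01⟩ := h.dirs555 hxz hyz hq' hT' (c := 1) one_pos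
  -- two good directions
  obtain ⟨i, j, hij, hsi, hsj⟩ : ∃ i j : Fin 3, i ≠ j ∧ ip m (n i) ≠ 0 ∧ ip m (n j) ≠ 0 := by
    have hbad : ∀ i j, i ≠ j → ip m (n i) = 0 → ip m (n j) ≠ 0 := by
      intro i j hij h1 h2
      have h3 := cr_bound403 (δ := m) (hn i) (hn j)
      rw [h1, h2, hm1, one_mul, abs_zero, add_zero] at h3
      have h4 := hc0cr i j hij
      linarith
    by_cases h0 : ip m (n 0) = 0
    · exact ⟨1, 2, by decide, hbad 0 1 (by decide) h0, hbad 0 2 (by decide) h0⟩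
    · by_cases h1 : ip m (n 1) = 0
      · exact ⟨0, 2, by decide, h0, hbad 1 2 (by decide) h1⟩
      · exact ⟨0, 1, by decide, h0, h1⟩
  -- the length of the rays
  obtain ⟨r, ⟨hrp, hr0⟩, hr1⟩ := (((h.ray_ext403 hXY haz hbz hsp hq hT.subset hm hray).and
    eventually_mem_nhdsWithin).and (mem_nhdsWithin_of_mem_nhds (Iio_mem_nhds
      (show (0 : ℝ) < min 1 (min |ip m (n i)| |ip m (n j)|) by
        have := abs_pos.2 hsi
        have := abs_pos.2 hsj
        positivity)))).exists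
  have hr0 : 0 < r := hr0
  have hr1 : r < min 1 (min |ip m (n i)| |ip m (n j)|) := hr1
  have hra : r ≤ 1 := hr1.le.trans (min_le_left _ _)
  have hri : r ≤ |ip m (n i)| := hr1.le.trans ((min_le_right _ _).trans (min_le_left _ _))
  have hrj : r ≤ |ip m (n j)| := hr1.le.trans ((min_le_right _ _).trans (min_le_right _ _))
  have hz := hrp.self_of_nhds haz hbz
  have hnear : ∀ l, ∀ᶠ p in 𝓝 z, T (p + n l) ⊆ {x, y} := by
    intro l
    have ht : Tendsto (fun p : ℂ => p + n l) (𝓝 z) (𝓝 (z + n l)) := by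
      have hc : Continuous fun p : ℂ => p + n l := by fun_prop
      exact hc.tendsto z
    have := ht.eventually (h.nhd (z + n l))
    rwa [hTn l] at this
  have hρ : (0 : ℝ) < min (2 * c0) (min (r * |ip m (n i)| / 5) (r * |ip m (n j)| / 5)) := by
    have := abs_pos.2 hsi
    have := abs_pos.2 hsj
    positivity
  filter_upwards [hrp, hnear i, hnear j, ball_mem_nhds z hρ] with p h1 h2 h3 h4 hap hbp hxp hyp
  rw [mem_ball, dist_eq_norm] at h4
  have h5 : ‖p - z‖ < 2 * c0 := lt_of_lt_of_le h4 (min_le_left _ _)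
  have h6 : ‖p - z‖ < r * |ip m (n i)| / 5 :=
    lt_of_lt_of_le h4 ((min_le_right _ _).trans (min_le_left _ _))
  have h7 : ‖p - z‖ < r * |ip m (n j)| / 5 :=
    lt_of_lt_of_le h4 ((min_le_right _ _).trans (min_le_right _ _))
  have hp := h1 hap hbp
  have hzp : ‖z - p‖ = ‖p - z‖ := norm_sub_rev _ _
  -- the two inequalities for one direction
  have key : ∀ l, T (p + n l) ⊆ {x, y} → ip m (n l) ≠ 0 → r ≤ |ip m (n l)| →
      ‖p - z‖ < r * |ip m (n l)| / 5 → p = z ∨ |ip (p - z) (n l)| ≤ ‖p - z‖ ^ 2 / 2 := by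
    intro l g1 g2 g3 g4
    have g5 : T (p + n l) = {x, y} := by
      refine h.pair_of_sub (w := p) ?_ (h.sub p hxp) (h.sub p hyp) g1
      rw [dist_eq_norm, add_sub_cancel_left, hn l]
    have A := ray_sign403 (o := z) (p := p) (m := m) (n := n l) hr0 hra hm1 (hn l) g3
      (by rw [hzp]; linarith) (fun t t0 t1 hd => by
        have u1 : z + t * m ∈ U x := h.mem_of_single (hz t t0 t1)
        exact h.mx.notMem' u1 hd (h.sub _ (by rw [g5]; simp)))
    have B := ray_sign403 (o := p) (p := z) (m := m) (n := n l) hr0 hra hm1 (hn l) g3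
      (by linarith) (fun t t0 t1 hd => by
        have u1 : p + t * m ∈ U x := h.mem_of_single (hp t t0 t1)
        exact h.mx.notMem' u1 hd
          (h.sub _ (by rw [hTn l]; simp)))
    have e1 : ip (z - p) (n l) = -ip (p - z) (n l) := by
      unfold ip; simp; ring
    rw [hzp, e1] at A
    rcases lt_or_gt_of_ne g2 with g6 | g6
    · right
      rw [abs_le]
      constructor
      · by_contra hcon
        push Not at hcon
        nlinarith
      · by_contra hcon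
        push Not at hcon
        nlinarith
    · left
      have g7 : ‖p - z‖ ^ 2 * ip m (n l) ≤ 0 := by nlinarith
      have g8 : ‖p - z‖ ^ 2 ≤ 0 := by
        by_contra hcon
        push Not at hcon
        nlinarith
      have g9 : ‖p - z‖ = 0 := by
        have := sq_nonneg ‖p - z‖
        exact pow_eq_zero_iff (two_ne_zero) |>.1 (le_antisymm g8 this)
      exact sub_eq_zero.1 (norm_eq_zero.1 g9)
  rcases key i h2 hsi hri h6 with k1 | k1
  · exact k1
  rcases key j h3 hsj hrj h7 with k2 | k2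
  · exact k2
  have k3 := cr_bound403 (δ := p - z) (hn i) (hn j)
  have k4 := hc0cr i j hij
  by_contra hne
  have k5 : 0 < ‖p - z‖ := norm_pos_iff.2 (sub_ne_zero.2 hne)
  have k6 : ‖p - z‖ * (2 * c0) < ‖p - z‖ * |cr (n i) (n j)| := mul_lt_mul_of_pos_left k4 k5
  nlinarith

/-- **Isolation at a cut pair.** -/
theorem iso_cut (h : Irr U T)
    (hmin : ∀ z, 4 ≤ (T z).ncard → ∀ s, s ⊆ T z → s ≠ T z →
      ¬ ∀ᶠ w in 𝓝 z, ∃ i ∈ s, w ∈ U i ∨ (w ∈ XX U ∧ i ∈ Pal U w)) {z q : ℂ} {a b x : Fin k}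
    {Y : Set (Fin k)} (h4 : 4 ≤ (T z).ncard) (hab : a ≠ b) (hz : T z = {a, b} ∪ ({x} ∪ Y))
    (hax : a ≠ x) (hbx : b ≠ x) (haY : a ∉ Y) (hbY : b ∉ Y) (hxY : x ∉ Y) (hY : Y.Nonempty)
    (hbr : ∀ y ∈ Y, ∃ q, dist q z = 1 ∧ T q = {x, y}) (hq : dist q z = 1)
    (hT : T q = {a, b}) : ∀ᶠ p in 𝓝 z, a ∈ T p → b ∈ T p → p = z := by
  have haz : a ∈ T z := by rw [hz]; exact Or.inl (Or.inl rfl)
  have hbz : b ∈ T z := by rw [hz]; exact Or.inl (Or.inr rfl)
  have hxz : x ∈ T z := by rw [hz]; exact Or.inr (Or.inl rfl)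
  have hYz : Y ⊆ T z := by rw [hz]; exact fun i hi => Or.inr (Or.inr hi)
  have hXY : Disjoint ({x} : Set (Fin k)) Y := Set.disjoint_singleton_left.2 hxY
  have hbr' : ∀ x' ∈ ({x} : Set (Fin k)), ∀ y ∈ Y, ∃ q, dist q z = 1 ∧ T q = {x', y} := by
    rintro x' rfl y hy
    exact hbr y hy
  have hsp : ∀ᶠ w in 𝓝 z, a ∉ T w → b ∉ T w → T w ⊆ {x} ∨ T w ⊆ Y := by
    filter_upwards [h.split_gen hmin (C := {a, b}) hz.subset (by
      rw [Set.ncard_singleton]; norm_num) hbr'] with w h1 h2 h3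
    refine h1 ?_
    rw [Set.disjoint_left]
    rintro i (rfl | rfl)
    · exact h2
    · exact h3
  have hsp' : ∀ᶠ w in 𝓝 z, a ∉ T w → b ∉ T w → T w ⊆ Y ∨ T w ⊆ {x} :=
    hsp.mono fun w h1 h2 h3 => (h1 h2 h3).symm
  obtain ⟨m, m', hm, hm', hr1, hr2⟩ : ∃ m m' : ℂ,
      (m = Complex.I * (q - z) ∨ m = -(Complex.I * (q - z))) ∧
      (m' = Complex.I * (q - z) ∨ m' = -(Complex.I * (q - z))) ∧
      (∃ᶠ t : ℝ in 𝓝[>] 0, T (z + t * m) ⊆ {x}) ∧ ∃ᶠ t : ℝ in 𝓝[>] 0, T (z + t * m') ⊆ Y := by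
    rcases h.nappes555 hmin h4 hab hz (fun h1 => hax h1) (fun h1 => hbx h1) haY hbY
      (singleton_nonempty _) hY hXY (by rw [Set.ncard_singleton]; norm_num) hbr' hq hT with h1 | h1
    · exact ⟨_, _, Or.inl rfl, Or.inr rfl, (h1.mono fun t ht => ht.1).frequently,
        (h1.mono fun t ht => ht.2).frequently⟩
    · exact ⟨_, _, Or.inr rfl, Or.inl rfl, (h1.mono fun t ht => ht.2).frequently,
        (h1.mono fun t ht => ht.1).frequently⟩
  obtain ⟨r1, hr1p, hr10⟩ := ((h.ray_ext403 hXY haz hbz hsp hq hT.subset hm hr1).and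
    eventually_mem_nhdsWithin).exists
  obtain ⟨r2, hr2p, hr20⟩ := ((h.ray_ext403 hXY.symm haz hbz hsp' hq hT.subset hm' hr2).and
    eventually_mem_nhdsWithin).exists
  have hall : ∀ᶠ p in 𝓝 z, ∀ y, y ∈ Y → a ∈ T p → b ∈ T p → x ∈ T p → y ∈ T p → p = z := by
    rw [eventually_all]
    intro y
    by_cases hy : y ∈ Y
    · obtain ⟨q', hq', hT'⟩ := hbr y hy
      exact (h.iso_aux403 hXY haz hbz hxz (hYz hy) hsp hq hT hm hr1 hq' hT').mono
        fun p hp _ => hp
    · exact Eventually.of_forall fun p h1 => absurd h1 hy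
  filter_upwards [hr1p, hr2p, hall] with p h1 h2 h3 hap hbp
  obtain ⟨i, hi, hip⟩ := h.mem_of_ray403 hr10 (h1 hap hbp)
  obtain ⟨y, hy, hyp⟩ := h.mem_of_ray403 hr20 (h2 hap hbp)
  rw [mem_singleton_iff] at hi
  exact h3 y hy hap hbp (hi ▸ hip) hyp

/-- both colours of a cut pair on one side of the line: impossible -/
theorem sep_aux403 (h : Irr U T) {z q : ℂ} {a b : Fin k} {X Y : Set (Fin k)}
    (hXY : Disjoint X Y) (haz : a ∈ T z) (hbz : b ∈ T z)
    (hsp : ∀ᶠ w in 𝓝 z, a ∉ T w → b ∉ T w → T w ⊆ X ∨ T w ⊆ Y) (hq : dist q z = 1)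
    (hT : T q = {a, b}) (hiso : ∀ᶠ p in 𝓝 z, a ∈ T p → b ∈ T p → p = z) {m : ℂ}
    (hm : m = Complex.I * (q - z) ∨ m = -(Complex.I * (q - z)))
    (hr1 : ∃ᶠ t : ℝ in 𝓝[>] 0, T (z + t * m) ⊆ X)
    (hr2 : ∃ᶠ t : ℝ in 𝓝[>] 0, T (z + t * -m) ⊆ Y) {τ : ℝ} (hτ : τ = 1 ∨ τ = -1) :
    ∃ ρ > 0, ∀ w1 w2, dist w1 z < ρ → dist w2 z < ρ → a ∈ T w1 → b ∈ T w2 →
      0 < τ * ip (w1 - z) (q - z) → 0 < τ * ip (w2 - z) (q - z) → False := by
  have hn1 : ‖q - z‖ = 1 := by rw [← dist_eq_norm]; exact hq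
  have hm1 : ‖m‖ = 1 := by
    rcases hm with rfl | rfl
    · rw [norm_mul, Complex.norm_I, hn1, one_mul]
    · rw [norm_neg, norm_mul, Complex.norm_I, hn1, one_mul]
  have hm' : -m = Complex.I * (q - z) ∨ -m = -(Complex.I * (q - z)) := by
    rcases hm with rfl | rfl
    · exact Or.inr rfl
    · exact Or.inl (neg_neg _)
  have hmn : ip m (q - z) = 0 := by
    rcases hm with rfl | rfl <;> · unfold ip; simp; ring
  have hmm : ip m m = 1 := by
    have := ip_sq hm1
    unfold ip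
    nlinarith
  have hnn : ip (q - z) (q - z) = 1 := by
    have := ip_sq hn1
    unfold ip
    nlinarith
  have hnm : ip (q - z) m = 0 := by rw [← hmn]; unfold ip; ring
  have hτ2 : τ * τ = 1 := by rcases hτ with rfl | rfl <;> norm_num
  have hτa : |τ| = 1 := by rcases hτ with rfl | rfl <;> simp
  have hcr := h.cross hq hT.subset
  obtain ⟨ε, he1, hε0⟩ := (hcr.and eventually_mem_nhdsWithin).exists
  have hε0 : 0 < ε := hε0
  obtain ⟨c, ⟨hc1, hc2⟩, hc0⟩ := (((h.cone_type555 hXY haz hbz hsp hq hT.subset hm hr1).and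
    (h.cone_type555 hXY.symm haz hbz (hsp.mono fun w h1 h2 h3 => (h1 h2 h3).symm) hq hT.subset hm'
      hr2)).and eventually_mem_nhdsWithin).exists
  have hc0 : 0 < c := hc0
  obtain ⟨R, hR, hRs⟩ := Metric.eventually_nhds_iff.1 (hsp.and hiso)
  obtain ⟨r, hr⟩ : ∃ r, r = min (min ε R) c / 4 := ⟨_, rfl⟩
  have hr0 : 0 < r := by rw [hr]; positivity
  have hrε : r ≤ ε / 4 := by
    rw [hr]
    have := (min_le_left (min ε R) c).trans (min_le_left _ _)
    linarith
  have hrR : r ≤ R / 4 := by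
    rw [hr]
    have := (min_le_left (min ε R) c).trans (min_le_right _ _)
    linarith
  have hrc : r ≤ c / 4 := by
    rw [hr]
    have := min_le_right (min ε R) c
    linarith
  -- points of the box
  obtain ⟨P, hP⟩ : ∃ P : ℝ → ℝ → ℂ, P = fun (s t : ℝ) => z + ((τ * s : ℝ) : ℂ) * (q - z) + (t : ℂ) * m :=
    ⟨_, rfl⟩
  have hPn : ∀ s t, ip (P s t - z) (q - z) = τ * s := by
    intro s t
    have : P s t - z = ((τ * s : ℝ) : ℂ) * (q - z) + (t : ℂ) * m := by rw [hP]; ring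
    rw [this, ip_add403, ip_smul403, ip_smul403, hnn, hmn]; ring
  have hPm : ∀ s t, ip (P s t - z) m = t := by
    intro s t
    have : P s t - z = ((τ * s : ℝ) : ℂ) * (q - z) + (t : ℂ) * m := by rw [hP]; ring
    rw [this, ip_add403, ip_smul403, ip_smul403, hnm, hmm]; ring
  have hPd : ∀ s t, |s| ≤ r → |t| ≤ r → dist (P s t) z < 4 * r := by
    intro s t hs ht
    have e1 : P s t - z = ((τ * s : ℝ) : ℂ) * (q - z) + (t : ℂ) * m := by rw [hP]; ring
    rw [dist_eq_norm, e1]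
    have h1 := norm_add_le (((τ * s : ℝ) : ℂ) * (q - z)) ((t : ℂ) * m)
    rw [norm_mul, norm_mul, hn1, hm1, Complex.norm_real, Complex.norm_real, Real.norm_eq_abs,
      Real.norm_eq_abs, abs_mul, hτa] at h1
    linarith
  obtain ⟨ρ, hρ⟩ : ∃ ρ, ρ = min r (c * r) := ⟨_, rfl⟩
  have hρ0 : 0 < ρ := by rw [hρ]; positivity
  have hρr : ρ ≤ r := by rw [hρ]; exact min_le_left _ _
  have hρc : ρ ≤ c * r := by rw [hρ]; exact min_le_right _ _
  refine ⟨ρ, hρ0, fun w1 w2 hw1 hw2 haw hbw hs1 hs2 => ?_⟩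
  -- every line at height `s` carries `a` or `b`
  have hcov : ∀ s, 0 < s → s < ρ → ∃ t ∈ Icc (-r) r, a ∈ T (P s t) ∨ b ∈ T (P s t) := by
    intro s h1 h2
    by_contra hcon
    push Not at hcon
    have hsr : |s| ≤ r := by rw [abs_of_pos h1]; linarith
    have htyp : ∀ t ∈ Icc (-r) r, T (P s t) ⊆ X ∨ T (P s t) ⊆ Y := by
      intro t ht
      have hd := hPd s t hsr (abs_le.2 ht)
      exact (hRs (by linarith)).1 (hcon t ht).1 (hcon t ht).2
    have hsn : |ip (P s r - z) (q - z)| ≤ c * r := by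
      rw [hPn, abs_mul, hτa, one_mul, abs_of_pos h1]; linarith
    have hsn' : |ip (P s (-r) - z) (q - z)| ≤ c * r := by
      rw [hPn, abs_mul, hτa, one_mul, abs_of_pos h1]; linarith
    have hend1 : T (P s r) ⊆ X := by
      have hd := hPd s r hsr (by rw [abs_of_pos hr0])
      refine hc1 _ (by linarith) ?_ ?_
      · rw [hPm]; exact hr0
      · rw [hPm]; exact hsn
    have hend2 : T (P s (-r)) ⊆ Y := by
      have hd := hPd s (-r) hsr (by rw [abs_neg, abs_of_pos hr0])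
      have e1 : ip (P s (-r) - z) (-m) = r := by
        have : ip (P s (-r) - z) (-m) = -ip (P s (-r) - z) m := by unfold ip; simp; ring
        rw [this, hPm]; ring
      refine hc2 _ (by linarith) ?_ ?_
      · rw [e1]; exact hr0
      · rw [e1]; exact hsn'
    have hcl1 : IsClosed (⋃ i ∈ X, {x | i ∈ T x}) :=
      (Set.toFinite _).isClosed_biUnion fun i _ => h.closed i
    have hcl2 : IsClosed (⋃ i ∈ Y, {x | i ∈ T x}) :=
      (Set.toFinite _).isClosed_biUnion fun i _ => h.closed i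
    have hcont : Continuous fun t : ℝ => P s t := by rw [hP]; fun_prop
    have hpre := (isPreconnected_Icc (a := -r) (b := r)).image _ hcont.continuousOn
    have hmem : ∀ S : Set (Fin k), ∀ x, T x ⊆ S → x ∈ ⋃ i ∈ S, {x | i ∈ T x} := by
      intro S x hx
      obtain ⟨i, hi⟩ := h.ne x
      exact mem_iUnion₂.2 ⟨i, hx hi, hi⟩
    obtain ⟨y, ⟨t, ht, hty⟩, hp1, hp2⟩ := isPreconnected_closed_iff.1 hpre _ _ hcl1 hcl2
      (by
        rintro _ ⟨t, ht, rfl⟩
        rcases htyp t ht with h1 | h1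
        · exact Or.inl (hmem _ _ h1)
        · exact Or.inr (hmem _ _ h1))
      ⟨P s r, ⟨r, ⟨by linarith, le_rfl⟩, rfl⟩, hmem _ _ hend1⟩
      ⟨P s (-r), ⟨-r, ⟨le_rfl, by linarith⟩, rfl⟩, hmem _ _ hend2⟩
    obtain ⟨i, hiX, hi⟩ := mem_iUnion₂.1 hp1
    obtain ⟨j, hjY, hj⟩ := mem_iUnion₂.1 hp2
    have hty : P s t = y := hty
    rcases htyp t ht with h3 | h3
    · rw [hty] at h3
      exact Set.disjoint_left.1 hXY (h3 hj) hjY
    · rw [hty] at h3
      exact Set.disjoint_left.1 hXY hiX (h3 hi)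
  -- not both on one line
  have hnot : ∀ s, 0 < s → s < ρ → ∀ t ∈ Icc (-r) r, ∀ t' ∈ Icc (-r) r, a ∈ T (P s t) →
      b ∈ T (P s t') → False := by
    intro s h1 h2 t ht t' ht' h3 h5
    have hsr : |s| ≤ r := by rw [abs_of_pos h1]; linarith
    have hd := hPd s t hsr (abs_le.2 ht)
    have hd' := hPd s t' hsr (abs_le.2 ht')
    by_cases hne : P s t = P s t'
    · rw [← hne] at h5
      have h6 := (hRs (show dist (P s t) z < R by linarith)).2 h3 h5
      have h7 := hPn s t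
      rw [h6, sub_self] at h7
      have h8 : ip 0 (q - z) = 0 := by unfold ip; simp
      rw [h8] at h7
      rcases hτ with rfl | rfl <;> linarith
    · have h6 := he1 _ _ (by linarith) (by linarith) h3 h5 hne
      have h7 : ip (P s t' - P s t) (q - z) = 0 := by
        have e1 : P s t' - P s t = (P s t' - z) - (P s t - z) := by ring
        have e2 : ip (P s t' - P s t) (q - z) = ip (P s t' - z) (q - z) -
            ip (P s t - z) (q - z) := by
          rw [e1]; unfold ip; simp; ring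
        rw [e2, hPn, hPn]; ring
      rw [h7, abs_zero] at h6
      have := mul_pos hε0 (dist_pos.2 hne)
      linarith
  -- the two closed sets of heights
  have hrep : ∀ w, dist w z < ρ → 0 < τ * ip (w - z) (q - z) →
      0 < τ * ip (w - z) (q - z) ∧ τ * ip (w - z) (q - z) < ρ ∧ ip (w - z) m ∈ Icc (-r) r ∧
      P (τ * ip (w - z) (q - z)) (ip (w - z) m) = w := by
    intro w hw hpos
    have k1 : |ip (w - z) (q - z)| ≤ dist w z := by
      have := abs_ip_le555 (w - z) (q - z)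
      rwa [hn1, mul_one, ← dist_eq_norm] at this
    have k2 : |ip (w - z) m| ≤ dist w z := by
      have := abs_ip_le555 (w - z) m
      rwa [hm1, mul_one, ← dist_eq_norm] at this
    refine ⟨hpos, ?_, abs_le.1 (by linarith), ?_⟩
    · have : τ * ip (w - z) (q - z) ≤ |ip (w - z) (q - z)| := by
        rcases hτ with rfl | rfl
        · rw [one_mul]; exact le_abs_self _
        · rw [neg_one_mul]; exact neg_le_abs _
      linarith
    · rw [hP]
      have e1 : τ * (τ * ip (w - z) (q - z)) = ip (w - z) (q - z) := by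
        rw [← mul_assoc, hτ2, one_mul]
      simp only
      rw [e1]
      have e2 : ((ip (w - z) (q - z) : ℝ) : ℂ) * (q - z) + ((ip (w - z) m : ℝ) : ℂ) * m = w - z := by
        have hnsq : (q.re - z.re) ^ 2 + (q.im - z.im) ^ 2 = 1 := by
          have := ip_sq hn1
          simpa using this
        rcases hm with rfl | rfl
        · apply Complex.ext
          · unfold ip
            simp
            linear_combination (w.re - z.re) * hnsq
          · unfold ip
            simp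
            linear_combination (w.im - z.im) * hnsq
        · apply Complex.ext
          · unfold ip
            simp
            linear_combination (w.re - z.re) * hnsq
          · unfold ip
            simp
            linear_combination (w.im - z.im) * hnsq
      linear_combination e2
  obtain ⟨a1, a2, a3, a4⟩ := hrep w1 hw1 hs1
  obtain ⟨b1, b2, b3, b4⟩ := hrep w2 hw2 hs2
  obtain ⟨s1, hs1e⟩ : ∃ s1, s1 = τ * ip (w1 - z) (q - z) := ⟨_, rfl⟩
  obtain ⟨s2, hs2e⟩ : ∃ s2, s2 = τ * ip (w2 - z) (q - z) := ⟨_, rfl⟩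
  rw [← hs1e] at a1 a2 a4
  rw [← hs2e] at b1 b2 b4
  have hclosed : ∀ i : Fin k, IsClosed {s : ℝ | ∃ t ∈ Icc (-r) r, i ∈ T (P s t)} := by
    intro i
    have hK : IsClosed {x : ℝ × ℝ | x.2 ∈ Icc (-r) r ∧ i ∈ T (P x.1 x.2)} := by
      refine IsClosed.inter (isClosed_Icc.preimage continuous_snd) ((h.closed i).preimage ?_)
      rw [hP]; fun_prop
    have hpr : IsClosedMap (Prod.fst : ℝ × (Icc (-r) r) → ℝ) := isClosedMap_fst_of_compactSpace
    have hK' : IsClosed {x : ℝ × (Icc (-r) r) | i ∈ T (P x.1 x.2)} := by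
      refine (h.closed i).preimage ?_
      rw [hP]; fun_prop
    have := hpr _ hK'
    convert this using 1
    ext s
    constructor
    · rintro ⟨t, ht, h1⟩
      exact ⟨(s, ⟨t, ht⟩), h1, rfl⟩
    · rintro ⟨⟨s', t⟩, h1, rfl⟩
      exact ⟨t, t.2, h1⟩
  have hpre : IsPreconnected (Icc (min s1 s2) (Max.max s1 s2)) := isPreconnected_Icc
  have hin : ∀ s ∈ Icc (min s1 s2) (Max.max s1 s2), 0 < s ∧ s < ρ := by
    intro s hs
    exact ⟨lt_of_lt_of_le (lt_min a1 b1) hs.1, lt_of_le_of_lt hs.2 (max_lt a2 b2)⟩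
  obtain ⟨s, hs, ⟨t, ht, h1⟩, ⟨t', ht', h2⟩⟩ := isPreconnected_closed_iff.1 hpre _ _
    (hclosed a) (hclosed b)
    (by
      intro s hs
      obtain ⟨h1, h2⟩ := hin s hs
      obtain ⟨t, ht, h3 | h3⟩ := hcov s h1 h2
      · exact Or.inl ⟨t, ht, h3⟩
      · exact Or.inr ⟨t, ht, h3⟩)
    ⟨s1, ⟨min_le_left _ _, le_max_left _ _⟩, _, a3, by rw [a4]; exact haw⟩
    ⟨s2, ⟨min_le_right _ _, le_max_right _ _⟩, _, b3, by rw [b4]; exact hbw⟩
  obtain ⟨h3, h5⟩ := hin s hs
  exact hnot s h3 h5 t ht t' ht' h1 h2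

/-- **Sides at a cut pair.** -/
theorem sep_cut (h : Irr U T)
    (hmin : ∀ z, 4 ≤ (T z).ncard → ∀ s, s ⊆ T z → s ≠ T z →
      ¬ ∀ᶠ w in 𝓝 z, ∃ i ∈ s, w ∈ U i ∨ (w ∈ XX U ∧ i ∈ Pal U w)) {z q : ℂ} {a b x : Fin k}
    {Y : Set (Fin k)} (h4 : 4 ≤ (T z).ncard) (hab : a ≠ b) (hz : T z = {a, b} ∪ ({x} ∪ Y))
    (hax : a ≠ x) (hbx : b ≠ x) (haY : a ∉ Y) (hbY : b ∉ Y) (hxY : x ∉ Y) (hY : Y.Nonempty)
    (hbr : ∀ y ∈ Y, ∃ q, dist q z = 1 ∧ T q = {x, y}) (hq : dist q z = 1)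
    (hT : T q = {a, b}) :
    ∃ σ : ℝ, (σ = 1 ∨ σ = -1) ∧ ∃ ε > 0, ∀ᶠ w in 𝓝 z,
      (a ∈ T w → ε * ‖w - z‖ ≤ σ * ip (w - z) (q - z)) ∧
      (b ∈ T w → ε * ‖w - z‖ ≤ -σ * ip (w - z) (q - z)) := by
  have haz : a ∈ T z := by rw [hz]; exact Or.inl (Or.inl rfl)
  have hbz : b ∈ T z := by rw [hz]; exact Or.inl (Or.inr rfl)
  have hXY : Disjoint ({x} : Set (Fin k)) Y := Set.disjoint_singleton_left.2 hxY
  have hbr' : ∀ x' ∈ ({x} : Set (Fin k)), ∀ y ∈ Y, ∃ q, dist q z = 1 ∧ T q = {x', y} := by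
    rintro x' rfl y hy
    exact hbr y hy
  have hsp : ∀ᶠ w in 𝓝 z, a ∉ T w → b ∉ T w → T w ⊆ {x} ∨ T w ⊆ Y := by
    filter_upwards [h.split_gen hmin (C := {a, b}) hz.subset (by
      rw [Set.ncard_singleton]; norm_num) hbr'] with w h1 h2 h3
    refine h1 ?_
    rw [Set.disjoint_left]
    rintro i (rfl | rfl)
    · exact h2
    · exact h3
  have hiso := h.iso_cut hmin h4 hab hz hax hbx haY hbY hxY hY hbr hq hT
  have hsep : ∀ τ : ℝ, (τ = 1 ∨ τ = -1) → ∃ ρ > 0, ∀ w1 w2, dist w1 z < ρ → dist w2 z < ρ →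
      a ∈ T w1 → b ∈ T w2 → 0 < τ * ip (w1 - z) (q - z) → 0 < τ * ip (w2 - z) (q - z) →
      False := by
    intro τ hτ
    rcases h.nappes555 hmin h4 hab hz (fun h1 => hax h1) (fun h1 => hbx h1) haY hbY
      (singleton_nonempty _) hY hXY (by rw [Set.ncard_singleton]; norm_num) hbr' hq hT with h1 | h1
    · exact h.sep_aux403 hXY haz hbz hsp hq hT hiso (Or.inl rfl)
        (h1.mono fun t ht => ht.1).frequently (h1.mono fun t ht => ht.2).frequently hτ
    · exact h.sep_aux403 hXY.symm haz hbz (hsp.mono fun w h1 h2 h3 => (h1 h2 h3).symm) hq hT hiso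
        (Or.inl rfl) (h1.mono fun t ht => ht.1).frequently
        (h1.mono fun t ht => ht.2).frequently hτ
  obtain ⟨ρ1, hρ1, hs1⟩ := hsep 1 (Or.inl rfl)
  obtain ⟨ρ2, hρ2, hs2⟩ := hsep (-1) (Or.inr rfl)
  have hcr1 := h.cross hq hT.subset
  have hcr2 := h.cross hq (a := b) (b := a) (by rw [Set.pair_comm]; exact hT.subset)
  obtain ⟨ε, ⟨he1, he2⟩, hε0⟩ := ((hcr1.and hcr2).and eventually_mem_nhdsWithin).exists
  have hε0 : 0 < ε := hε0
  have hsym : ∀ w, |ip (z - w) (q - z)| = |ip (w - z) (q - z)| := by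
    intro w
    have : ip (z - w) (q - z) = -ip (w - z) (q - z) := by unfold ip; simp; ring
    rw [this, abs_neg]
  have hA : ∀ w, dist w z < ε → a ∈ T w → w ≠ z → ε * ‖w - z‖ ≤ |ip (w - z) (q - z)| := by
    intro w h1 h2 h3
    have := he1 w z h1 (by rw [dist_self]; exact hε0) h2 hbz h3
    rwa [hsym, dist_eq_norm] at this
  have hB : ∀ w, dist w z < ε → b ∈ T w → w ≠ z → ε * ‖w - z‖ ≤ |ip (w - z) (q - z)| := by
    intro w h1 h2 h3
    have := he2 w z h1 (by rw [dist_self]; exact hε0) h2 haz h3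
    rwa [hsym, dist_eq_norm] at this
  obtain ⟨ρ, hρ⟩ : ∃ ρ, ρ = min ε (min ρ1 ρ2) := ⟨_, rfl⟩
  have hρ0 : 0 < ρ := by rw [hρ]; positivity
  have hρε : ρ ≤ ε := by rw [hρ]; exact min_le_left _ _
  have hρ1' : ρ ≤ ρ1 := by rw [hρ]; exact (min_le_right _ _).trans (min_le_left _ _)
  have hρ2' : ρ ≤ ρ2 := by rw [hρ]; exact (min_le_right _ _).trans (min_le_right _ _)
  have hnz : ∀ i w, T w = {i} → w ≠ z := by
    rintro i w h1 rfl
    rw [h1, Set.ncard_singleton] at h4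
    omega
  obtain ⟨wa, hwa1, hwa2⟩ := ((h.pure z a haz).and_eventually (ball_mem_nhds z hρ0)).exists
  obtain ⟨wb, hwb1, hwb2⟩ := ((h.pure z b hbz).and_eventually (ball_mem_nhds z hρ0)).exists
  have hwa2 : dist wa z < ρ := hwa2
  have hwb2 : dist wb z < ρ := hwb2
  have hpos : ∀ w, w ≠ z → 0 < ε * ‖w - z‖ := fun w hw =>
    mul_pos hε0 (norm_pos_iff.2 (sub_ne_zero.2 hw))
  have ka := hA wa (by linarith) (by rw [hwa1]; exact mem_singleton _) (hnz a wa hwa1)
  have kb := hB wb (by linarith) (by rw [hwb1]; exact mem_singleton _) (hnz b wb hwb1)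
  have ka' := hpos wa (hnz a wa hwa1)
  have kb' := hpos wb (hnz b wb hwb1)
  have haT : a ∈ T wa := by rw [hwa1]; exact mem_singleton _
  have hbT : b ∈ T wb := by rw [hwb1]; exact mem_singleton _
  -- the sign of `a`
  obtain ⟨σ, hσ, hσa⟩ : ∃ σ : ℝ, (σ = 1 ∨ σ = -1) ∧ 0 < σ * ip (wa - z) (q - z) := by
    rcases lt_trichotomy (ip (wa - z) (q - z)) 0 with h1 | h1 | h1
    · exact ⟨-1, Or.inr rfl, by linarith⟩
    · rw [h1, abs_zero] at ka; linarith
    · exact ⟨1, Or.inl rfl, by linarith⟩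
  have hS : ∀ w1 w2, dist w1 z < ρ → dist w2 z < ρ → a ∈ T w1 → b ∈ T w2 →
      0 < σ * ip (w1 - z) (q - z) → 0 < σ * ip (w2 - z) (q - z) → False := by
    rcases hσ with rfl | rfl
    · exact fun w1 w2 h1 h2 => hs1 w1 w2 (by linarith) (by linarith)
    · exact fun w1 w2 h1 h2 => hs2 w1 w2 (by linarith) (by linarith)
  have hS' : ∀ w1 w2, dist w1 z < ρ → dist w2 z < ρ → a ∈ T w1 → b ∈ T w2 →
      0 < -σ * ip (w1 - z) (q - z) → 0 < -σ * ip (w2 - z) (q - z) → False := by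
    rcases hσ with rfl | rfl
    · exact fun w1 w2 h1 h2 => hs2 w1 w2 (by linarith) (by linarith)
    · intro w1 w2 h1 h2 h3 h5 h6 h7
      exact hs1 w1 w2 (by linarith) (by linarith) h3 h5 (by linarith) (by linarith)
  have habs : ∀ v : ℝ, 0 < |v| → ¬ 0 < σ * v → |v| = -σ * v ∧ 0 < -σ * v := by
    intro v h1 h2
    rcases hσ with rfl | rfl
    · rw [one_mul] at h2
      have h3 : |v| = -v := abs_of_nonpos (not_lt.1 h2)
      exact ⟨by rw [h3]; ring, by linarith⟩
    · have h3 : |v| = v := abs_of_nonneg (by linarith)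
      exact ⟨by rw [h3]; ring, by linarith⟩
  have habs' : ∀ v : ℝ, 0 < |v| → ¬ 0 < -σ * v → |v| = σ * v := by
    intro v h1 h2
    rcases hσ with rfl | rfl
    · rw [one_mul, abs_of_nonneg (by linarith)]
    · rw [abs_of_nonpos (by linarith)]; ring
  have hbneg : 0 < -σ * ip (wb - z) (q - z) := by
    have h1 : ¬ 0 < σ * ip (wb - z) (q - z) := fun h2 => hS wa wb hwa2 hwb2 haT hbT hσa h2
    exact (habs _ (by linarith) h1).2
  refine ⟨σ, hσ, ε, hε0, ?_⟩
  filter_upwards [ball_mem_nhds z hρ0] with w hw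
  rw [mem_ball] at hw
  constructor
  · intro haw
    by_cases hwz : w = z
    · rw [hwz, sub_self, norm_zero]
      have : ip 0 (q - z) = 0 := by unfold ip; simp
      rw [this]; simp
    · have h1 := hA w (by linarith) haw hwz
      have h2 := hpos w hwz
      have h3 : ¬ 0 < -σ * ip (w - z) (q - z) := fun h5 => hS' w wb hw hwb2 haw hbT h5 hbneg
      rw [habs' _ (by linarith) h3] at h1
      exact h1
  · intro hbw
    by_cases hwz : w = z
    · rw [hwz, sub_self, norm_zero]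
      have : ip 0 (q - z) = 0 := by unfold ip; simp
      rw [this]; simp
    · have h1 := hB w (by linarith) hbw hwz
      have h2 := hpos w hwz
      have h3 : ¬ 0 < σ * ip (w - z) (q - z) := fun h5 => hS wa w hwa2 hw haT hbw hσa h5
      rw [(habs _ (by linarith) h3).1] at h1
      exact h1

end Irr

end Vale.Agent.P032.Six
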