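import Vale.Agent.P032.H403.Iso5

/-!
# P032: a 5-centre all of whose five diagonals are exact is isolated, with strict sides
-/

open Set Filter Topology Metric

noncomputable section

namespace Vale.Agent.P032.Six

variable {k : ℕ} {U : Fin k → Set ℂ} {T : ℂ → Set (Fin k)}

namespace Irr

theorem five_cut403 {c : Fin 5 → Fin k} (i : Fin 5) :
    range c = {c i, c (i + 2)} ∪ ({c (i + 1)} ∪ {c (i + 3), c (i + 4)}) := by
  ext x
  constructor
  · rintro ⟨j, rfl⟩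
    have : ∀ i j : Fin 5, j = i ∨ j = i + 2 ∨ j = i + 1 ∨ j = i + 3 ∨ j = i + 4 := by decide
    rcases this i j with rfl | rfl | rfl | rfl | rfl
    · exact Or.inl (Or.inl rfl)
    · exact Or.inl (Or.inr rfl)
    · exact Or.inr (Or.inl rfl)
    · exact Or.inr (Or.inr (Or.inl rfl))
    · exact Or.inr (Or.inr (Or.inr rfl))
  · rintro ((rfl | rfl) | rfl | rfl | rfl) <;> exact mem_range_self _

theorem five_ncard403 {c : Fin 5 → Fin k} (hc : Function.Injective c) : (range c).ncard = 5 := by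
  rw [← Set.image_univ, Set.ncard_image_of_injective _ hc, Set.ncard_univ]
  simp

/-- **Isolation of a 5-centre** with all five diagonals exact: no `p ≠ z` near `z` has two
colours `c i`, `c (i + 2)`. -/
theorem iso_five403 (h : Irr U T)
    (hmin : ∀ z, 4 ≤ (T z).ncard → ∀ s, s ⊆ T z → s ≠ T z →
      ¬ ∀ᶠ w in 𝓝 z, ∃ i ∈ s, w ∈ U i ∨ (w ∈ XX U ∧ i ∈ Pal U w)) {z : ℂ}
    {c : Fin 5 → Fin k} (hc : Function.Injective c) (hz : T z = range c)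
    (hE : ∀ i, ∃ q, dist q z = 1 ∧ T q = {c i, c (i + 2)}) :
    ∀ᶠ p in 𝓝 z, ∀ i, c i ∈ T p → c (i + 2) ∈ T p → p = z := by
  rw [eventually_all]
  intro i
  obtain ⟨q, hq, hT⟩ := hE i
  have hne : ∀ i j : Fin 5, i ≠ j → c i ≠ c j := fun i j hij h1 => hij (hc h1)
  have hd : ∀ i : Fin 5, i ≠ i + 2 ∧ i ≠ i + 1 ∧ i + 2 ≠ i + 1 ∧ i ≠ i + 3 ∧ i ≠ i + 4 ∧
      i + 2 ≠ i + 3 ∧ i + 2 ≠ i + 4 ∧ i + 1 ≠ i + 3 ∧ i + 1 ≠ i + 4 := by decide
  obtain ⟨d1, d2, d3, d4, d5, d6, d7, d8, d9⟩ := hd i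
  refine h.iso_cut hmin (x := c (i + 1)) (Y := {c (i + 3), c (i + 4)}) ?_ (hne _ _ d1)
    (hz.trans (five_cut403 i)) (hne _ _ d2) (hne _ _ d3) ?_ ?_ ?_ ⟨_, Or.inl rfl⟩ ?_ hq hT
  · rw [hz, five_ncard403 hc]; norm_num
  · rintro (h1 | h1)
    · exact hne _ _ d4 h1
    · exact hne _ _ d5 h1
  · rintro (h1 | h1)
    · exact hne _ _ d6 h1
    · exact hne _ _ d7 h1
  · rintro (h1 | h1)
    · exact hne _ _ d8 h1
    · exact hne _ _ d9 h1
  · rintro y (rfl | rfl)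
    · obtain ⟨q, h1, h2⟩ := hE (i + 1)
      refine ⟨q, h1, ?_⟩
      rw [h2, add_assoc]; rfl
    · obtain ⟨q, h1, h2⟩ := hE (i + 4)
      refine ⟨q, h1, ?_⟩
      have : i + 4 + 2 = i + 1 := by rw [add_assoc]; rfl
      rw [h2, this, Set.pair_comm]

/-- **Strict sides at a 5-centre** with all five diagonals exact. -/
theorem sep_five403 (h : Irr U T)
    (hmin : ∀ z, 4 ≤ (T z).ncard → ∀ s, s ⊆ T z → s ≠ T z →
      ¬ ∀ᶠ w in 𝓝 z, ∃ i ∈ s, w ∈ U i ∨ (w ∈ XX U ∧ i ∈ Pal U w)) {z : ℂ}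
    {c : Fin 5 → Fin k} (hc : Function.Injective c) (hz : T z = range c)
    (hE : ∀ i, ∃ q, dist q z = 1 ∧ T q = {c i, c (i + 2)}) {i : Fin 5} {q : ℂ}
    (hq : dist q z = 1) (hT : T q = {c i, c (i + 2)}) :
    ∃ σ : ℝ, (σ = 1 ∨ σ = -1) ∧ ∃ ε > 0, ∀ᶠ w in 𝓝 z,
      (c i ∈ T w → ε * ‖w - z‖ ≤ σ * ip (w - z) (q - z)) ∧
      (c (i + 2) ∈ T w → ε * ‖w - z‖ ≤ -σ * ip (w - z) (q - z)) := by
  have hne : ∀ i j : Fin 5, i ≠ j → c i ≠ c j := fun i j hij h1 => hij (hc h1)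
  have hd : ∀ i : Fin 5, i ≠ i + 2 ∧ i ≠ i + 1 ∧ i + 2 ≠ i + 1 ∧ i ≠ i + 3 ∧ i ≠ i + 4 ∧
      i + 2 ≠ i + 3 ∧ i + 2 ≠ i + 4 ∧ i + 1 ≠ i + 3 ∧ i + 1 ≠ i + 4 := by decide
  obtain ⟨d1, d2, d3, d4, d5, d6, d7, d8, d9⟩ := hd i
  refine h.sep_cut hmin (x := c (i + 1)) (Y := {c (i + 3), c (i + 4)}) ?_ (hne _ _ d1)
    (hz.trans (five_cut403 i)) (hne _ _ d2) (hne _ _ d3) ?_ ?_ ?_ ⟨_, Or.inl rfl⟩ ?_ hq hT
  · rw [hz, five_ncard403 hc]; norm_num
  · rintro (h1 | h1)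
    · exact hne _ _ d4 h1
    · exact hne _ _ d5 h1
  · rintro (h1 | h1)
    · exact hne _ _ d6 h1
    · exact hne _ _ d7 h1
  · rintro (h1 | h1)
    · exact hne _ _ d8 h1
    · exact hne _ _ d9 h1
  · rintro y (rfl | rfl)
    · obtain ⟨q, h1, h2⟩ := hE (i + 1)
      refine ⟨q, h1, ?_⟩
      rw [h2, add_assoc]; rfl
    · obtain ⟨q, h1, h2⟩ := hE (i + 4)
      refine ⟨q, h1, ?_⟩
      have : i + 4 + 2 = i + 1 := by rw [add_assoc]; rfl
      rw [h2, this, Set.pair_comm]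

/-- a set of at least three of the five colours contains a diagonal -/
theorem five_diag403 : ∀ s : Finset (Fin 5), 3 ≤ s.card → ∃ i, i ∈ s ∧ i + 2 ∈ s := by decide

/-- **`z` is isolated in `{3 ≤ |T|}`.** -/
theorem two_five403 (h : Irr U T)
    (hmin : ∀ z, 4 ≤ (T z).ncard → ∀ s, s ⊆ T z → s ≠ T z →
      ¬ ∀ᶠ w in 𝓝 z, ∃ i ∈ s, w ∈ U i ∨ (w ∈ XX U ∧ i ∈ Pal U w)) {z : ℂ}
    {c : Fin 5 → Fin k} (hc : Function.Injective c) (hz : T z = range c)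
    (hE : ∀ i, ∃ q, dist q z = 1 ∧ T q = {c i, c (i + 2)}) :
    ∀ᶠ p in 𝓝 z, p ≠ z → (T p).ncard ≤ 2 := by
  have husc : ∀ᶠ p in 𝓝 z, ∀ i, i ∉ T z → i ∉ T p := by
    rw [eventually_all]
    intro i
    by_cases hi : i ∈ T z
    · exact Eventually.of_forall fun p h1 => absurd hi h1
    · filter_upwards [(h.closed i).isOpen_compl.mem_nhds hi] with p hp _ using hp
  filter_upwards [h.iso_five403 hmin hc hz hE, husc] with p h1 h2 hp
  by_contra hcon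
  push Not at hcon
  classical
  have h3 : (Finset.univ.filter fun i => c i ∈ T p).card = (T p).ncard := by
    rw [← Set.ncard_coe_finset]
    have : T p = c '' (Finset.univ.filter fun i => c i ∈ T p : Finset (Fin 5)) := by
      ext x
      constructor
      · intro hx
        have h3 : x ∈ T z := by
          by_contra h5
          exact h2 x h5 hx
        rw [hz] at h3
        obtain ⟨i, rfl⟩ := h3
        exact ⟨i, by simpa using hx, rfl⟩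
      · rintro ⟨i, hi, rfl⟩
        simpa using hi
    conv_rhs => rw [this]
    rw [Set.ncard_image_of_injective _ hc]
  obtain ⟨i, hi, hi'⟩ := five_diag403 _ (by rw [h3]; exact hcon)
  exact hp (h1 i (by simpa using hi) (by simpa using hi'))

end Irr

end Vale.Agent.P032.Six
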