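import Vale.Agent.P032.H564.IntHt

/-!
# P032: passages (273's lemma (A5))

`IntCov Q s b` with `s + 5 < b`, `Q = {l0}` just after `s` and `Q (s + 1) ⊆ {l1}` has two disjoint
passages `l0 - l1 - l2`.
-/

open Set Filter Topology

noncomputable section

namespace Vale.Agent.P032.H403

open Vale.Agent.P032.H180 Vale.Agent.P032.H564

/-- a height passes an even value -/
theorem pass {f : ℝ → ℤ} {u v : ℝ}
    (p1 : ∀ t ∈ Icc u v, ∀ᶠ s in 𝓝[Icc u v] t, |f s - f t| ≤ 1)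
    (p2 : ∀ t ∈ Icc u v, f t % 2 = 0 → ∀ᶠ s in 𝓝[Icc u v] t, f s = f t)
    {x y : ℝ} (hx : u ≤ x) (hxy : x ≤ y) (hy : y ≤ v) {k : ℤ} (hk : k % 2 = 0)
    (h1 : f x ≤ k - 1) (h2 : k + 1 ≤ f y) :
    ∃ t1 t2, x ≤ t1 ∧ t1 < t2 ∧ t2 ≤ y ∧ f t1 = k - 1 ∧ f t2 = k + 1 ∧
      ∀ t ∈ Ioo t1 t2, f t = k := by
  have cl : ∀ (S : Set ℝ), S ⊆ Icc u v → ∀ t ∈ Icc u v, t ∈ closure S →
      ∀ P : ℝ → Prop, (∀ s ∈ S, P s) → (∀ᶠ s in 𝓝[Icc u v] t, |f s - f t| ≤ 1 ∧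
        (f t % 2 = 0 → f s = f t)) → ∃ s, P s ∧ |f s - f t| ≤ 1 ∧ (f t % 2 = 0 → f s = f t) := by
    intro S hS t ht htS P hP hev
    rw [mem_closure_iff_nhdsWithin_neBot] at htS
    have hev' := hev.filter_mono (nhdsWithin_mono t hS)
    obtain ⟨s, hs1, hs2⟩ := (hev'.and self_mem_nhdsWithin).exists
    exact ⟨s, hP s hs2, hs1.1, hs1.2⟩
  have ev : ∀ t ∈ Icc u v, ∀ᶠ s in 𝓝[Icc u v] t, |f s - f t| ≤ 1 ∧
      (f t % 2 = 0 → f s = f t) := by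
    intro t ht
    by_cases he : f t % 2 = 0
    · filter_upwards [p1 t ht, p2 t ht he] with s h3 h4 using ⟨h3, fun _ => h4⟩
    · filter_upwards [p1 t ht] with s h3 using ⟨h3, fun h => absurd h he⟩
  -- the first time above
  set S : Set ℝ := {t | t ∈ Icc x y ∧ k + 1 ≤ f t} with hSdef
  have hSne : S.Nonempty := ⟨y, ⟨hxy, le_rfl⟩, h2⟩
  have hSb : BddBelow S := ⟨x, fun t ht => ht.1.1⟩
  set t2 := sInf S with ht2
  have ht2x : x ≤ t2 := le_csInf hSne fun t ht => ht.1.1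
  have ht2y : t2 ≤ y := csInf_le hSb ⟨⟨hxy, le_rfl⟩, h2⟩
  have ht2I : t2 ∈ Icc u v := ⟨hx.trans ht2x, ht2y.trans hy⟩
  have hf2 : k + 1 ≤ f t2 := by
    obtain ⟨s, hs, hs1, hs2⟩ := cl S (fun t ht => ⟨hx.trans ht.1.1, ht.1.2.trans hy⟩) t2 ht2I
      (csInf_mem_closure hSne hSb) (fun s => k + 1 ≤ f s) (fun s hs => hs.2) (ev t2 ht2I)
    rw [abs_le] at hs1
    by_cases he : f t2 % 2 = 0
    · rw [← hs2 he]; exact hs
    · omega
  -- the last time below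
  set R : Set ℝ := {t | t ∈ Icc x t2 ∧ f t ≤ k - 1} with hRdef
  have hRne : R.Nonempty := ⟨x, ⟨le_rfl, ht2x⟩, h1⟩
  have hRb : BddAbove R := ⟨t2, fun t ht => ht.1.2⟩
  set t1 := sSup R with ht1
  have ht1x : x ≤ t1 := le_csSup hRb ⟨⟨le_rfl, ht2x⟩, h1⟩
  have ht12 : t1 ≤ t2 := csSup_le hRne fun t ht => ht.1.2
  have ht1I : t1 ∈ Icc u v := ⟨hx.trans ht1x, (ht12.trans ht2y).trans hy⟩
  have hf1 : f t1 ≤ k - 1 := by
    obtain ⟨s, hs, hs1, hs2⟩ := cl R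
      (fun t ht => ⟨hx.trans ht.1.1, (ht.1.2.trans ht2y).trans hy⟩) t1 ht1I
      (csSup_mem_closure hRne hRb) (fun s => f s ≤ k - 1) (fun s hs => hs.2) (ev t1 ht1I)
    rw [abs_le] at hs1
    by_cases he : f t1 % 2 = 0
    · rw [← hs2 he]; exact hs
    · omega
  have hlt : t1 < t2 := lt_of_le_of_ne ht12 fun h => by
    rw [h] at hf1
    omega
  have hmid : ∀ t ∈ Ioo t1 t2, f t = k := by
    intro t ht
    have a1 : ¬ k + 1 ≤ f t := fun h =>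
      absurd (csInf_le hSb (show t ∈ S from ⟨⟨ht1x.trans ht.1.le, ht.2.le.trans ht2y⟩, h⟩))
        (not_le.2 ht.2)
    have a2 : ¬ f t ≤ k - 1 := fun h =>
      absurd (le_csSup hRb (show t ∈ R from ⟨⟨ht1x.trans ht.1.le, ht.2.le⟩, h⟩))
        (not_le.2 ht.1)
    omega
  have hsub : Ioo t1 t2 ⊆ Icc u v := fun t ht =>
    ⟨(hx.trans ht1x).trans ht.1.le, (ht.2.le.trans ht2y).trans hy⟩
  have hcl : closure (Ioo t1 t2) = Icc t1 t2 := closure_Ioo hlt.ne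
  refine ⟨t1, t2, ht1x, hlt, ht2y, ?_, ?_, hmid⟩
  · obtain ⟨s, hs, hs1, -⟩ := cl (Ioo t1 t2) hsub t1 ht1I (hcl ▸ ⟨le_rfl, hlt.le⟩)
      (fun s => f s = k) hmid (ev t1 ht1I)
    rw [abs_le] at hs1
    omega
  · obtain ⟨s, hs, hs1, -⟩ := cl (Ioo t1 t2) hsub t2 ht2I (hcl ▸ ⟨hlt.le, le_rfl⟩)
      (fun s => f s = k) hmid (ev t2 ht2I)
    rw [abs_le] at hs1
    omega

variable {Q : ℝ → Set (Fin 3)} {s b : ℝ}

/-- normalized form -/
theorem n5 (h : IntCov Q s b) (hb : s + 5 < b) (h0 : ∀ᶠ t in 𝓝[>] s, Q t ⊆ {0})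
    (h1 : Q (s + 1) ⊆ {1}) {φ : ℝ}
    (hP : ∀ t1 t2, s < t1 → t1 < t2 → t2 < b → (∀ t ∈ Ioo t1 t2, Q t ⊆ {1}) → 1 ∈ Q t1 →
      1 ∈ Q t2 → ((0 ∈ Q t1 ∧ 2 ∈ Q t2) ∨ (2 ∈ Q t1 ∧ 0 ∈ Q t2)) → φ ∈ Icc t1 t2) : False := by
  have e1 : ∀ᶠ t in 𝓝[>] s, Q (t + 1) ⊆ {1} := by
    have h3 : ∀ᶠ r in 𝓝 (s + 1), Q r ⊆ {1} :=
      (h.usc (s + 1) ⟨by linarith, by linarith⟩).mono fun r hr => hr.trans h1
    have h4 : Tendsto (fun t : ℝ => t + 1) (𝓝[>] s) (𝓝 (s + 1)) :=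
      ((continuous_id.add continuous_const).tendsto s).mono_left nhdsWithin_le_nhds
    exact h4.eventually h3
  have e2 : ∀ᶠ t in 𝓝[>] s, t ∈ Ioo s (b - 5) := Ioo_mem_nhdsGT (by linarith)
  obtain ⟨u, ⟨hu0, hu1⟩, hu2⟩ := ((h0.and e1).and e2).exists
  obtain ⟨M, N, H⟩ := h.exHt (u := u) (v := u + 5) hu2.1 (by linarith) (by linarith [hu2.2])
  have i0 : u ∈ Icc u (u + 5) := ⟨le_rfl, by linarith⟩
  have i1 : u + 1 ∈ Icc u (u + 5) := ⟨by linarith, by linarith⟩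
  have i5 : u + 5 ∈ Icc u (u + 5) := ⟨by linarith, le_rfl⟩
  have r0 := H.r0 i0 hu0
  have r1 := H.r1 i1 hu1
  have s1 := H.step u le_rfl (by linarith)
  have s2 := H.step (u + 1) (by linarith) (by linarith)
  have s3 := H.step (u + 2) (by linarith) (by linarith)
  have s4 := H.step (u + 3) (by linarith) (by linarith)
  have s5 := H.step (u + 4) (by linarith) (by linarith)
  rw [show u + 1 + 1 = u + 2 by ring] at s2
  rw [show u + 2 + 1 = u + 3 by ring] at s3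
  rw [show u + 3 + 1 = u + 4 by ring] at s4
  rw [show u + 4 + 1 = u + 5 by ring] at s5
  -- labels
  have lab : ∀ t ∈ Icc u (u + 5), (M t % 6 = 1 → 0 ∈ Q t ∧ 1 ∈ Q t) ∧
      (M t % 6 = 3 → 1 ∈ Q t ∧ 2 ∈ Q t) ∧ (M t % 6 = 2 → Q t ⊆ {1}) := by
    intro t ht
    refine ⟨fun hm => ⟨(H.mem t ht 0).2 ?_, (H.mem t ht 1).2 ?_⟩,
      fun hm => ⟨(H.mem t ht 1).2 ?_, (H.mem t ht 2).2 ?_⟩, fun hm l hl => ?_⟩
    · simp [Res]; omega
    · simp [Res]; omega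
    · simp [Res]; omega
    · simp [Res]; omega
    · exact only1 hm l ((H.mem t ht l).1 hl)
  have p1 : ∀ t ∈ Icc u (u + 5), ∀ᶠ r in 𝓝[Icc u (u + 5)] t, |M r - M t| ≤ 1 := H.loc
  have p2 : ∀ t ∈ Icc u (u + 5), M t % 2 = 0 → ∀ᶠ r in 𝓝[Icc u (u + 5)] t, M r = M t := by
    intro t ht he
    have hB : t ∈ Ioo s b := ⟨by linarith [hu2.1, ht.1], by linarith [hu2.2, ht.2]⟩
    filter_upwards [p1 t ht, mem_nhdsWithin_of_mem_nhds (h.usc t hB), self_mem_nhdsWithin]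
      with r hr1 hr2 hrI
    rw [abs_le] at hr1
    have k : ∀ l : Fin 3, Res (M r - 2 * (l : ℕ)) → Res (M t - 2 * (l : ℕ)) := fun l hl =>
      (H.mem t ht l).1 (hr2 ((H.mem r hrI l).2 hl))
    have k0 := k 0
    have k1 := k 1
    have k2 := k 2
    simp only [Res, Fin.val_zero, Fin.val_one, Fin.val_two, Nat.cast_zero, Nat.cast_one,
      Nat.cast_ofNat] at k0 k1 k2
    omega
  have bnd : ∀ {t : ℝ}, t ∈ Icc u (u + 5) → s < t ∧ t < b := fun ht =>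
    ⟨by linarith [hu2.1, ht.1], by linarith [hu2.2, ht.2]⟩
  -- passages upward
  have up : ∀ k : ℤ, k % 6 = 2 → M u ≤ k - 1 → k + 1 ≤ M (u + 5) → φ ∈ Icc u (u + 5) ∧
      k - 1 ≤ M φ ∧ M φ ≤ k + 1 := by
    intro k hk ha hb'
    obtain ⟨t1, t2, g1, g2, g3, g4, g5, g6⟩ :=
      pass p1 p2 le_rfl (by linarith) le_rfl (by omega) ha hb'
    have j1 : t1 ∈ Icc u (u + 5) := ⟨g1, by linarith⟩
    have j2 : t2 ∈ Icc u (u + 5) := ⟨by linarith, g3⟩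
    have hφ := hP t1 t2 (bnd j1).1 g2 (bnd j2).2
      (fun t ht => (lab t ⟨by linarith [ht.1], by linarith [ht.2]⟩).2.2 (by rw [g6 t ht]; exact hk))
      ((lab t1 j1).1 (by omega)).2 ((lab t2 j2).2.1 (by omega)).1
      (Or.inl ⟨((lab t1 j1).1 (by omega)).1, ((lab t2 j2).2.1 (by omega)).2⟩)
    refine ⟨⟨by linarith [hφ.1], by linarith [hφ.2]⟩, ?_⟩
    rcases eq_or_lt_of_le hφ.1 with h3 | h3
    · rw [← h3]; omega
    rcases eq_or_lt_of_le hφ.2 with h4 | h4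
    · rw [h4]; omega
    · rw [g6 φ ⟨h3, h4⟩]; omega
  have down : ∀ k : ℤ, k % 6 = 2 → k + 1 ≤ M u → M (u + 5) ≤ k - 1 → φ ∈ Icc u (u + 5) ∧
      k - 1 ≤ M φ ∧ M φ ≤ k + 1 := by
    intro k hk ha hb'
    obtain ⟨t1, t2, g1, g2, g3, g4, g5, g6⟩ :=
      pass (f := fun t => -M t) (u := u) (v := u + 5)
        (fun t ht => (p1 t ht).mono fun r hr => by
          have : -M r - -M t = -(M r - M t) := by ring
          rw [this, abs_neg]; exact hr)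
        (fun t ht he => (p2 t ht (by omega)).mono fun r hr => by rw [hr])
        le_rfl (by linarith) le_rfl (k := -k) (by omega) (by simpa using by omega)
        (by simpa using by omega)
    have g4' : M t1 = k + 1 := by have : -M t1 = -k - 1 := g4; omega
    have g5' : M t2 = k - 1 := by have : -M t2 = -k + 1 := g5; omega
    have g6' : ∀ t ∈ Ioo t1 t2, M t = k := fun t ht => by
      have : -M t = -k := g6 t ht
      omega
    have j1 : t1 ∈ Icc u (u + 5) := ⟨g1, by linarith⟩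
    have j2 : t2 ∈ Icc u (u + 5) := ⟨by linarith, g3⟩
    have hφ := hP t1 t2 (bnd j1).1 g2 (bnd j2).2
      (fun t ht => (lab t ⟨by linarith [ht.1], by linarith [ht.2]⟩).2.2
        (by rw [g6' t ht]; exact hk))
      ((lab t1 j1).2.1 (by omega)).1 ((lab t2 j2).1 (by omega)).2
      (Or.inr ⟨((lab t1 j1).2.1 (by omega)).2, ((lab t2 j2).1 (by omega)).1⟩)
    refine ⟨⟨by linarith [hφ.1], by linarith [hφ.2]⟩, ?_⟩
    rcases eq_or_lt_of_le hφ.1 with h3 | h3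
    · rw [← h3]; omega
    rcases eq_or_lt_of_le hφ.2 with h4 | h4
    · rw [h4]; omega
    · rw [g6' φ ⟨h3, h4⟩]; omega
  rcases lt_or_ge N 0 with hN | hN
  · have d1 := down (M u - 4) (by omega) (by omega) (by omega)
    have d2 := down (M u - 10) (by omega) (by omega) (by omega)
    omega
  · have d1 := up (M u + 2) (by omega) (by omega) (by omega)
    have d2 := up (M u + 8) (by omega) (by omega) (by omega)
    omega

variable {l0 l1 l2 : Fin 3} {φ : ℝ}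

/-- **(A5)** (273): one of the passages `l0 - l1 - l2` does not contain `φ` -/
theorem a5 (h : IntCov Q s b) (h01 : l0 ≠ l1) (h12 : l1 ≠ l2) (h02 : l0 ≠ l2) (hb : s + 5 < b)
    (h0 : ∀ᶠ t in 𝓝[>] s, Q t ⊆ {l0}) (h1 : Q (s + 1) ⊆ {l1})
    (hP : ∀ t1 t2, s < t1 → t1 < t2 → t2 < b → (∀ t ∈ Ioo t1 t2, Q t ⊆ {l1}) → l1 ∈ Q t1 →
      l1 ∈ Q t2 → ((l0 ∈ Q t1 ∧ l2 ∈ Q t2) ∨ (l2 ∈ Q t1 ∧ l0 ∈ Q t2)) → φ ∈ Icc t1 t2) :
    False := by
  have hp := perm_eq h01 h12 h02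
  have hs := perm_surj h01 h12 h02
  refine n5 (φ := φ) (h.comap _ hs) hb ?_ (fun i hi => hp.2.1 i (h1 hi)) ?_
  · filter_upwards [h0] with t ht i hi using hp.1 i (ht hi)
  · intro t1 t2 g1 g2 g3 g4 g5 g6 g7
    refine hP t1 t2 g1 g2 g3 (fun t ht l hl => ?_) g5 g6 g7
    obtain ⟨i, rfl⟩ := hs l
    have : i = 1 := g4 t ht hl
    rw [this]
    rfl

/-- reflection -/
theorem IntCov.neg {a : ℝ} (h : IntCov Q a b) : IntCov (fun t => Q (-t)) (-b) (-a) := by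
  refine ⟨fun t ht => h.ne (-t) ⟨by linarith [ht.2], by linarith [ht.1]⟩,
    fun t ht => h.nu (-t) ⟨by linarith [ht.2], by linarith [ht.1]⟩, fun t ht => ?_,
    fun t h1 h2 => ?_, fun t h1 h2 => ?_⟩
  · exact (continuous_neg.tendsto t).eventually
      (h.usc (-t) ⟨by linarith [ht.2], by linarith [ht.1]⟩)
  · have := h.inc' (-(t + 1)) (by linarith) (by linarith)
    rwa [show -(t + 1) + 1 = -t by ring] at this
  · have := h.inc (-(t + 1)) (by linarith) (by linarith)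
    rwa [show -(t + 1) + 1 = -t by ring] at this

/-- **(A5)**, mirror image -/
theorem a5' {a : ℝ} (h : IntCov Q a s) (h01 : l0 ≠ l1) (h12 : l1 ≠ l2) (h02 : l0 ≠ l2)
    (hb : a < s - 5) (h0 : ∀ᶠ t in 𝓝[<] s, Q t ⊆ {l0}) (h1 : Q (s - 1) ⊆ {l1})
    (hP : ∀ t1 t2, a < t1 → t1 < t2 → t2 < s → (∀ t ∈ Ioo t1 t2, Q t ⊆ {l1}) → l1 ∈ Q t1 →
      l1 ∈ Q t2 → ((l0 ∈ Q t1 ∧ l2 ∈ Q t2) ∨ (l2 ∈ Q t1 ∧ l0 ∈ Q t2)) → φ ∈ Icc t1 t2) :
    False := by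
  refine a5 (φ := -φ) (IntCov.neg h) h01 h12 h02 (by linarith) ?_ ?_ ?_
  · have h3 : Tendsto (fun t : ℝ => -t) (𝓝[>] (-s)) (𝓝[<] s) := by
      have := tendsto_neg_nhdsGT (a := -s)
      rwa [neg_neg] at this
    exact h3.eventually h0
  · show Q (-(-s + 1)) ⊆ {l1}
    rw [show -(-s + 1) = s - 1 by ring]
    exact h1
  · intro t1 t2 g1 g2 g3 g4 g5 g6 g7
    have := hP (-t2) (-t1) (by linarith) (by linarith) (by linarith)
      (fun t ht => by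
        have := g4 (-t) ⟨by linarith [ht.2], by linarith [ht.1]⟩
        rwa [neg_neg] at this) g6 g5
      (by rcases g7 with ⟨k1, k2⟩ | ⟨k1, k2⟩
          · exact Or.inr ⟨k2, k1⟩
          · exact Or.inl ⟨k2, k1⟩)
    exact ⟨by linarith [this.2], by linarith [this.1]⟩

end Vale.Agent.P032.H403
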