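import Vale.Agent.P032.S5.H555.Cut
import Vale.Agent.P032.S5.H555.Chord
import Vale.Agent.P032.S5.H555.Penta

/-!
# P032: the broken pairs of a five-coloured point are diagonals of a pentagon, no hypothesis on the
circle

`Irr.no_tri`: no point with exactly five colours `a b c d e` and broken pairs `ab`, `bc`, `ca`, `de`.
`Irr.pentU`: `|T z| = 5`; the colours of `z` have a cyclic order `c` such that every pair of colours
of `z` on the unit circle is `{c i, c (i + 2)}`, or the broken pairs of `z` are exactly the three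
pairs of `c 0, c 1, c 2` (and `c 3`, `c 4` are silent).  The unit circle may carry points of any
order.
-/

open Set Filter Topology Metric

noncomputable section

namespace Vale.Agent.P032.Six

namespace Irr

/-- three pairwise broken colours and a broken pair of the two others -/
theorem no_tri {k : ℕ} {U : Fin k → Set ℂ} {T : ℂ → Set (Fin k)} (h : Irr U T)
    (hmin : ∀ z, 4 ≤ (T z).ncard → ∀ s, s ⊆ T z → s ≠ T z →
      ¬ ∀ᶠ w in 𝓝 z, ∃ i ∈ s, w ∈ U i ∨ (w ∈ XX U ∧ i ∈ Pal U w)) {z q : ℂ}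
    {g : Fin 3 → Fin k} {d e : Fin k} (h4 : 4 ≤ (T z).ncard) (hg : Function.Injective g)
    (hde : d ≠ e) (hdg : ∀ i, d ≠ g i) (heg : ∀ i, e ≠ g i) (hz : T z = {d, e} ∪ range g)
    (hq : dist q z = 1) (hT : T q = {d, e})
    (hbr : ∀ i j, i ≠ j → ∃ q, dist q z = 1 ∧ T q = {g i, g j}) : False := by
  have key : ∀ i : Fin 3,
      (∀ᶠ t : ℝ in 𝓝[>] 0, T (z + t * (Complex.I * (q - z))) ⊆ {g i}) ∨
      ∀ᶠ t : ℝ in 𝓝[>] 0, T (z + t * -(Complex.I * (q - z))) ⊆ {g i} := by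
    intro i
    obtain ⟨j0, hj0⟩ : ∃ j : Fin 3, j ≠ i := ⟨i + 1, by revert i; decide⟩
    rcases h.nappes555 hmin (a := d) (b := e) (X := {g i}) (Y := g '' {j | j ≠ i}) h4 hde (by
        rw [hz]
        congr 1
        ext x
        constructor
        · rintro ⟨j, rfl⟩
          by_cases hj : j = i
          · exact Or.inl (by rw [hj]; exact mem_singleton _)
          · exact Or.inr ⟨j, hj, rfl⟩
        · rintro (h1 | ⟨j, -, rfl⟩)
          · exact ⟨i, (mem_singleton_iff.1 h1).symm⟩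
          · exact mem_range_self j)
      (fun h1 => hdg i h1) (fun h1 => heg i h1)
      (by rintro ⟨j, -, hj⟩; exact hdg j hj.symm) (by rintro ⟨j, -, hj⟩; exact heg j hj.symm)
      (singleton_nonempty _) ⟨g j0, j0, hj0, rfl⟩
      (by
        rw [Set.disjoint_left]
        rintro x hx ⟨j, hj, hjx⟩
        exact hj (hg (hjx.trans hx)))
      (by rw [Set.ncard_singleton]; norm_num)
      (by
        rintro x hx y ⟨j, hj, rfl⟩
        obtain ⟨q', hq', hT'⟩ := hbr i j (Ne.symm hj)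
        exact ⟨q', hq', by rw [hT', mem_singleton_iff.1 hx]⟩) hq hT with h1 | h1
    · exact Or.inl (h1.mono fun t ht => ht.1)
    · exact Or.inr (h1.mono fun t ht => ht.2)
  have two : ∀ m : ℂ, ∀ i j, i ≠ j → (∀ᶠ t : ℝ in 𝓝[>] 0, T (z + t * m) ⊆ {g i}) →
      (∀ᶠ t : ℝ in 𝓝[>] 0, T (z + t * m) ⊆ {g j}) → False := by
    intro m i j hij h1 h2
    obtain ⟨t, h3, h5⟩ := (h1.and h2).exists
    obtain ⟨l, hl⟩ := h.ne (z + t * m)
    exact hij (hg ((mem_singleton_iff.1 (h3 hl)).symm.trans (mem_singleton_iff.1 (h5 hl))))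
  have n01 : (0 : Fin 3) ≠ 1 := by decide
  have n02 : (0 : Fin 3) ≠ 2 := by decide
  have n12 : (1 : Fin 3) ≠ 2 := by decide
  rcases key 0 with h0 | h0 <;> rcases key 1 with h1 | h1 <;> rcases key 2 with h2 | h2
  · exact two _ _ _ n01 h0 h1
  · exact two _ _ _ n01 h0 h1
  · exact two _ _ _ n02 h0 h2
  · exact two _ _ _ n12 h1 h2
  · exact two _ _ _ n12 h1 h2
  · exact two _ _ _ n02 h0 h2
  · exact two _ _ _ n01 h0 h1
  · exact two _ _ _ n01 h0 h1

variable {U : Fin 6 → Set ℂ} {T : ℂ → Set (Fin 6)}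

/-- the conclusion of `pentU` -/
def PentT (T : ℂ → Set (Fin 6)) (z : ℂ) : Prop :=
  ∃ c : Fin 5 → Fin 6, Function.Injective c ∧ T z = range c ∧
      ((∀ q, dist q z = 1 → (T q).ncard = 2 → T q ⊆ T z → ∃ i, T q = {c i, c (i + 2)}) ∨
      ((∀ q, dist q z = 1 → (T q).ncard = 2 → T q ⊆ T z →
          T q = {c 0, c 1} ∨ T q = {c 1, c 2} ∨ T q = {c 0, c 2}) ∧
        (∃ q, dist q z = 1 ∧ T q = {c 0, c 1}) ∧ (∃ q, dist q z = 1 ∧ T q = {c 1, c 2}) ∧
        ∃ q, dist q z = 1 ∧ T q = {c 0, c 2}))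

/-- a permutation of the five indices -/
theorem pentT_perm {z : ℂ} {c : Fin 5 → Fin 6} (hcinj : Function.Injective c)
    (hcr : T z = range c) (p : Fin 5 → Fin 5) (hp : Function.Injective p)
    (h1 : ∀ q, dist q z = 1 → (T q).ncard = 2 → T q ⊆ T z →
      ∃ i, T q = {c (p i), c (p (i + 2))}) : PentT T z := by
  refine ⟨fun i => c (p i), hcinj.comp hp, ?_, Or.inl h1⟩
  have hps : Function.Surjective p := Finite.surjective_of_injective hp
  rw [hcr]
  ext x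
  constructor
  · rintro ⟨i, rfl⟩
    obtain ⟨j, rfl⟩ := hps i
    exact ⟨j, rfl⟩
  · rintro ⟨i, rfl⟩
    exact ⟨p i, rfl⟩

/-- all four broken pairs of the type triangle and edge: impossible -/
theorem no_tri5 (h : Irr U T)
    (hmin : ∀ z, 4 ≤ (T z).ncard → ∀ s, s ⊆ T z → s ≠ T z →
      ¬ ∀ᶠ w in 𝓝 z, ∃ i ∈ s, w ∈ U i ∨ (w ∈ XX U ∧ i ∈ Pal U w)) {z : ℂ}
    (h5 : (T z).ncard = 5) {c : Fin 5 → Fin 6} (hcinj : Function.Injective c)
    (hcr : T z = range c) (k34 : ∃ q, dist q z = 1 ∧ T q = {c 3, c 4})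
    (k01 : ∃ q, dist q z = 1 ∧ T q = {c 0, c 1}) (k12 : ∃ q, dist q z = 1 ∧ T q = {c 1, c 2})
    (k02 : ∃ q, dist q z = 1 ∧ T q = {c 0, c 2}) : False := by
  obtain ⟨q, hq, hT⟩ := k34
  obtain ⟨e, he⟩ : ∃ e : Fin 3 → Fin 5, e = ![0, 1, 2] := ⟨_, rfl⟩
  have hei : Function.Injective e := by rw [he]; decide
  have he0 : e 0 = 0 := by rw [he]; decide
  have he1 : e 1 = 1 := by rw [he]; decide
  have he2 : e 2 = 2 := by rw [he]; decide
  have he3 : ∀ i, (3 : Fin 5) ≠ e i := by rw [he]; decide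
  have he4 : ∀ i, (4 : Fin 5) ≠ e i := by rw [he]; decide
  refine h.no_tri hmin (z := z) (q := q) (g := fun i => c (e i)) (d := c 3) (e := c 4)
    (by omega) (hcinj.comp hei) ?_ ?_ ?_ ?_ hq hT ?_
  · exact fun h1 => absurd (hcinj h1) (by decide)
  · exact fun i h1 => he3 i (hcinj h1)
  · exact fun i h1 => he4 i (hcinj h1)
  · rw [hcr]
    ext x
    constructor
    · rintro ⟨i, rfl⟩
      have : i = 3 ∨ i = 4 ∨ ∃ j, e j = i := by rw [he]; revert i; decide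
      rcases this with rfl | rfl | ⟨j, rfl⟩
      · exact Or.inl (Or.inl rfl)
      · exact Or.inl (Or.inr rfl)
      · exact Or.inr ⟨j, rfl⟩
    · rintro ((rfl | h1) | ⟨i, rfl⟩)
      · exact ⟨3, rfl⟩
      · exact ⟨4, (mem_singleton_iff.1 h1).symm⟩
      · exact ⟨e i, rfl⟩
  · have sy : ∀ a b : Fin 5, (∃ q, dist q z = 1 ∧ T q = {c a, c b}) →
        ∃ q, dist q z = 1 ∧ T q = {c b, c a} := by
      rintro a b ⟨q, h1, h2⟩
      exact ⟨q, h1, by rw [h2, Set.pair_comm]⟩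
    have key : ∀ i j : Fin 3, i ≠ j →
        (i = 0 ∧ j = 1) ∨ (i = 1 ∧ j = 0) ∨ (i = 1 ∧ j = 2) ∨ (i = 2 ∧ j = 1) ∨
        (i = 0 ∧ j = 2) ∨ (i = 2 ∧ j = 0) := by decide
    intro i j hij
    show ∃ q, dist q z = 1 ∧ T q = {c (e i), c (e j)}
    rcases key i j hij with ⟨rfl, rfl⟩ | ⟨rfl, rfl⟩ | ⟨rfl, rfl⟩ | ⟨rfl, rfl⟩ | ⟨rfl, rfl⟩ |
      ⟨rfl, rfl⟩
    · rw [he0, he1]; exact k01
    · rw [he0, he1]; exact sy _ _ k01
    · rw [he1, he2]; exact k12
    · rw [he1, he2]; exact sy _ _ k12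
    · rw [he0, he2]; exact k02
    · rw [he0, he2]; exact sy _ _ k02

/-- the type triangle and edge -/
theorem pentT_of_low (h : Irr U T)
    (hmin : ∀ z, 4 ≤ (T z).ncard → ∀ s, s ⊆ T z → s ≠ T z →
      ¬ ∀ᶠ w in 𝓝 z, ∃ i ∈ s, w ∈ U i ∨ (w ∈ XX U ∧ i ∈ Pal U w)) {z : ℂ}
    (h5 : (T z).ncard = 5) {c : Fin 5 → Fin 6} (hcinj : Function.Injective c)
    (hcr : T z = range c)
    (hlow : ∀ q, dist q z = 1 → (T q).ncard = 2 → T q ⊆ T z →
        T q = {c 0, c 1} ∨ T q = {c 1, c 2} ∨ T q = {c 0, c 2} ∨ T q = {c 3, c 4}) :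
    PentT T z := by
  by_cases k01 : ∃ q, dist q z = 1 ∧ T q = {c 0, c 1}
  · by_cases k12 : ∃ q, dist q z = 1 ∧ T q = {c 1, c 2}
    · by_cases k02 : ∃ q, dist q z = 1 ∧ T q = {c 0, c 2}
      · by_cases k34 : ∃ q, dist q z = 1 ∧ T q = {c 3, c 4}
        · exact (h.no_tri5 hmin h5 hcinj hcr k34 k01 k12 k02).elim
        · refine ⟨c, hcinj, hcr, Or.inr ⟨fun q hq h1 h2 => ?_, k01, k12, k02⟩⟩
          rcases hlow q hq h1 h2 with h3 | h3 | h3 | h3
          · exact Or.inl h3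
          · exact Or.inr (Or.inl h3)
          · exact Or.inr (Or.inr h3)
          · exact absurd ⟨q, hq, h3⟩ k34
      · refine pentT_perm hcinj hcr ![0, 3, 1, 4, 2] (by decide) fun q hq h1 h2 => ?_
        rcases hlow q hq h1 h2 with h3 | h3 | h3 | h3
        · exact ⟨0, h3⟩
        · exact ⟨2, h3⟩
        · exact absurd ⟨q, hq, h3⟩ k02
        · exact ⟨1, h3⟩
    · refine pentT_perm hcinj hcr ![1, 3, 0, 4, 2] (by decide) fun q hq h1 h2 => ?_
      rcases hlow q hq h1 h2 with h3 | h3 | h3 | h3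
      · exact ⟨0, by rw [h3]; exact Set.pair_comm _ _⟩
      · exact absurd ⟨q, hq, h3⟩ k12
      · exact ⟨2, h3⟩
      · exact ⟨1, h3⟩
  · refine pentT_perm hcinj hcr ![0, 3, 2, 4, 1] (by decide) fun q hq h1 h2 => ?_
    rcases hlow q hq h1 h2 with h3 | h3 | h3 | h3
    · exact absurd ⟨q, hq, h3⟩ k01
    · exact ⟨2, by rw [h3]; exact Set.pair_comm _ _⟩
    · exact ⟨0, h3⟩
    · exact ⟨1, h3⟩

/-- **The graph of the broken pairs of a five-coloured point**, no hypothesis on the unit circle. -/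
theorem pentU (h : Irr U T)
    (hmin : ∀ z, 4 ≤ (T z).ncard → ∀ s, s ⊆ T z → s ≠ T z →
      ¬ ∀ᶠ w in 𝓝 z, ∃ i ∈ s, w ∈ U i ∨ (w ∈ XX U ∧ i ∈ Pal U w)) {z : ℂ}
    (h5 : (T z).ncard = 5) :
    PentT T z := by
  have hcard : Nat.card (T z) = 5 := by rw [Nat.card_coe_set_eq]; exact h5
  obtain ⟨e⟩ : Nonempty (T z ≃ Fin 5) := ⟨Finite.equivFinOfCardEq hcard⟩
  obtain ⟨g, hg⟩ : ∃ g : Fin 5 → Fin 6, g = fun i => (e.symm i).val := ⟨_, rfl⟩
  have hginj : Function.Injective g := by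
    rw [hg]
    intro i j hij
    exact e.symm.injective (Subtype.ext hij)
  have hgr : T z = range g := by
    rw [hg]
    ext x
    constructor
    · intro hx
      exact ⟨e ⟨x, hx⟩, by simp⟩
    · rintro ⟨i, rfl⟩
      exact (e.symm i).2
  have hgz : ∀ i, g i ∈ T z := fun i => by rw [hgr]; exact mem_range_self i
  obtain ⟨P, hP⟩ : ∃ P : Fin 5 → Fin 5 → Prop, P = fun i j => i ≠ j ∧
      ∃ q, dist q z = 1 ∧ T q = {g i, g j} := ⟨_, rfl⟩
  have hPi : ∀ i j, P i j ↔ i ≠ j ∧ ∃ q, dist q z = 1 ∧ T q = {g i, g j} := by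
    intro i j; rw [hP]
  have symm : ∀ i j, P i j → P j i := by
    intro i j hij
    rw [hPi] at hij ⊢
    obtain ⟨h1, q, h2, h4⟩ := hij
    exact ⟨h1.symm, q, h2, by rw [h4, Set.pair_comm]⟩
  have irr : ∀ i, ¬ P i i := by
    intro i hii
    rw [hPi] at hii
    exact hii.1 rfl
  have deg : ∀ i j k l, P i j → P i k → P i l → j = k ∨ k = l ∨ j = l := by
    intro i j k l h1 h2 h4
    by_contra hcon
    rw [not_or, not_or] at hcon
    obtain ⟨hjk, hkl, hjl⟩ := hcon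
    rw [hPi] at h1 h2 h4
    obtain ⟨hij, q1, hq1, hT1⟩ := h1
    obtain ⟨hik, q2, hq2, hT2⟩ := h2
    obtain ⟨hil, q3, hq3, hT3⟩ := h4
    obtain ⟨d, e', hd, he, hdi, hei, hde, hdq, heq⟩ := h.two_contacts hmin (by omega) (hgz i)
    rw [hgr] at hd he
    obtain ⟨a, rfl⟩ := hd
    obtain ⟨b, rfl⟩ := he
    refine six_of_five555 hij hik hil (a := a) (b := b) (fun h1 => hdi (by rw [h1]))
      (fun h1 => hei (by rw [h1])) hjk hjl ?_ ?_ hkl ?_ ?_ ?_ ?_ (fun h1 => hde (by rw [h1]))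
    · rintro rfl; exact hdq q1 hq1 hT1
    · rintro rfl; exact heq q1 hq1 hT1
    · rintro rfl; exact hdq q2 hq2 hT2
    · rintro rfl; exact heq q2 hq2 hT2
    · rintro rfl; exact hdq q3 hq3 hT3
    · rintro rfl; exact heq q3 hq3 hT3
  obtain ⟨s, hs, hcase⟩ := Words.G555.graph5 symm irr deg
  have hss : Function.Surjective s := Finite.surjective_of_injective hs
  obtain ⟨c, hc⟩ : ∃ c : Fin 5 → Fin 6, c = fun i => g (s i) := ⟨_, rfl⟩
  have hci : ∀ i, c i = g (s i) := fun i => by rw [hc]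
  have hcinj : Function.Injective c := by
    intro i j hij
    rw [hci, hci] at hij
    exact hs (hginj hij)
  have hcr : T z = range c := by
    rw [hgr]
    ext x
    constructor
    · rintro ⟨i, rfl⟩
      obtain ⟨j, rfl⟩ := hss i
      exact ⟨j, hci j⟩
    · rintro ⟨i, rfl⟩
      exact ⟨s i, (hci i).symm⟩
  have hcz : ∀ i, c i ∈ T z := fun i => by rw [hcr]; exact mem_range_self i
  have hPc : ∀ i j, P (s i) (s j) ↔ i ≠ j ∧ ∃ q, dist q z = 1 ∧ T q = {c i, c j} := by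
    intro i j
    rw [hPi, ← hci, ← hci]
    exact and_congr_left fun _ => hs.ne_iff
  have hpair : ∀ q, (T q).ncard = 2 → T q ⊆ T z → ∃ i j, i ≠ j ∧ T q = {c i, c j} := by
    intro q h1 h2
    obtain ⟨x, y, hxy, hTq⟩ := Set.ncard_eq_two.1 h1
    have hx : x ∈ T z := h2 (by rw [hTq]; simp)
    have hy : y ∈ T z := h2 (by rw [hTq]; simp)
    rw [hcr] at hx hy
    obtain ⟨i, rfl⟩ := hx
    obtain ⟨j, rfl⟩ := hy
    exact ⟨i, j, fun h4 => hxy (by rw [h4]), hTq⟩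
  have hmem5 : ∀ x, x ∈ T z → x = c 0 ∨ x = c 1 ∨ x = c 2 ∨ x = c 3 ∨ x = c 4 := by
    intro x hx
    rw [hcr] at hx
    obtain ⟨i, rfl⟩ := hx
    have : i = 0 ∨ i = 1 ∨ i = 2 ∨ i = 3 ∨ i = 4 := by
      have : ∀ i : Fin 5, i = 0 ∨ i = 1 ∨ i = 2 ∨ i = 3 ∨ i = 4 := by decide
      exact this i
    rcases this with rfl | rfl | rfl | rfl | rfl
    · exact Or.inl rfl
    · exact Or.inr (Or.inl rfl)
    · exact Or.inr (Or.inr (Or.inl rfl))
    · exact Or.inr (Or.inr (Or.inr (Or.inl rfl)))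
    · exact Or.inr (Or.inr (Or.inr (Or.inr rfl)))
  rcases hcase with hcase | hcase | hcase
  · -- the pentagon
    refine ⟨c, hcinj, hcr, Or.inl fun q hq h1 h2 => ?_⟩
    obtain ⟨i, j, hij, hTq⟩ := hpair q h1 h2
    have hfin : ∀ i j : Fin 5, i ≠ j → j = i + 1 ∨ i = j + 1 ∨ j = i + 2 ∨ i = j + 2 := by decide
    rcases hfin i j hij with rfl | rfl | rfl | rfl
    · exact absurd ((hPc _ _).2 ⟨hij, q, hq, hTq⟩) (hcase i)
    · refine absurd ((hPc _ _).2 ⟨hij.symm, q, hq, ?_⟩) (hcase j)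
      rw [hTq, Set.pair_comm]
    · exact ⟨i, hTq⟩
    · exact ⟨j, by rw [hTq, Set.pair_comm]⟩
  · -- the four cycle
    exfalso
    obtain ⟨h01, h12, h23, h30⟩ := hcase
    rw [hPc] at h01 h12 h23 h30
    refine h.no_cut hmin (z := z) (x := c 4) (A := {c 0, c 2}) (B := {c 1, c 3}) (by omega) ?_ ?_ ?_
      ?_ ⟨c 0, Or.inl rfl⟩ ⟨c 1, Or.inl rfl⟩ ?_ ?_
    · ext x
      constructor
      · intro hx
        rcases hmem5 x hx with rfl | rfl | rfl | rfl | rfl <;> simp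
      · rintro (rfl | (rfl | rfl) | (rfl | rfl)) <;> exact hcz _
    · simp [hcinj.eq_iff]
    · simp [hcinj.eq_iff]
    · rw [Set.disjoint_left]
      rintro x (rfl | rfl) <;> simp [hcinj.eq_iff]
    · exact (Set.ncard_insert_le _ _).trans (by rw [Set.ncard_singleton])
    · rintro a (rfl | rfl) b (rfl | rfl)
      · exact h01.2
      · obtain ⟨-, q, hq, hTq⟩ := h30
        exact ⟨q, hq, by rw [hTq, Set.pair_comm]⟩
      · obtain ⟨-, q, hq, hTq⟩ := h12
        exact ⟨q, hq, by rw [hTq, Set.pair_comm]⟩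
      · exact h23.2
  · -- triangle and edge: every pair has both colours below 3 or is `{c 3, c 4}`
    have hlow : ∀ q, dist q z = 1 → (T q).ncard = 2 → T q ⊆ T z →
        T q = {c 0, c 1} ∨ T q = {c 1, c 2} ∨ T q = {c 0, c 2} ∨ T q = {c 3, c 4} := by
      intro q hq h1 h2
      obtain ⟨i, j, hij, hTq⟩ := hpair q h1 h2
      have hfin : ∀ i j : Fin 5, i ≠ j →
          (i = 0 ∧ j = 1 ∨ i = 1 ∧ j = 0) ∨ (i = 1 ∧ j = 2 ∨ i = 2 ∧ j = 1) ∨
          (i = 0 ∧ j = 2 ∨ i = 2 ∧ j = 0) ∨ (i = 3 ∧ j = 4 ∨ i = 4 ∧ j = 3) ∨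
          (i.val < 3 ∧ (j = 3 ∨ j = 4)) ∨ (j.val < 3 ∧ (i = 3 ∨ i = 4)) := by decide
      rcases hfin i j hij with h3 | h3 | h3 | h3 | h3 | h3
      · left
        rcases h3 with ⟨rfl, rfl⟩ | ⟨rfl, rfl⟩
        · exact hTq
        · rw [hTq, Set.pair_comm]
      · right; left
        rcases h3 with ⟨rfl, rfl⟩ | ⟨rfl, rfl⟩
        · exact hTq
        · rw [hTq, Set.pair_comm]
      · right; right; left
        rcases h3 with ⟨rfl, rfl⟩ | ⟨rfl, rfl⟩
        · exact hTq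
        · rw [hTq, Set.pair_comm]
      · right; right; right
        rcases h3 with ⟨rfl, rfl⟩ | ⟨rfl, rfl⟩
        · exact hTq
        · rw [hTq, Set.pair_comm]
      · exfalso
        obtain ⟨h4, h5'⟩ := h3
        rcases h5' with rfl | rfl
        · exact (hcase i h4).1 ((hPc _ _).2 ⟨hij, q, hq, hTq⟩)
        · exact (hcase i h4).2 ((hPc _ _).2 ⟨hij, q, hq, hTq⟩)
      · exfalso
        obtain ⟨h4, h5'⟩ := h3
        have hTq' : T q = {c j, c i} := by rw [hTq, Set.pair_comm]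
        rcases h5' with rfl | rfl
        · exact (hcase j h4).1 ((hPc _ _).2 ⟨hij.symm, q, hq, hTq'⟩)
        · exact (hcase j h4).2 ((hPc _ _).2 ⟨hij.symm, q, hq, hTq'⟩)
    exact h.pentT_of_low hmin h5 hcinj hcr hlow

end Irr

end Vale.Agent.P032.Six
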